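import Vale.Agent.P267.Defs

/-! P267: algebra of holomorphic and smooth germs. -/

open scoped Manifold ContDiff Topology
open Filter Metric Set

noncomputable section

namespace Vale.Agent.P267

set_option linter.unusedSectionVars false

variable {M : Type} [TopologicalSpace M] [ChartedSpace C2 M]

variable {f h : M → ℂ} {p : M}

private theorem aa_tend (p : M) : Tendsto (chartAt C2 p).symm (𝓝 (chartAt C2 p p)) (𝓝 p) :=
  (chartAt C2 p).tendsto_symm (mem_chart_source C2 p)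

private theorem aa_val {β : Type} (f : M → β) (p : M) :
    (f ∘ (chartAt C2 p).symm) (chartAt C2 p p) = f p := by
  simp only [Function.comp_apply, (chartAt C2 p).left_inv (mem_chart_source C2 p)]

private theorem aa_cont {β : Type} [TopologicalSpace β] {f : M → β}
    (hf : ContinuousAt (f ∘ (chartAt C2 p).symm) (chartAt C2 p p)) : ContinuousAt f p := by
  have h1 : ContinuousAt ((f ∘ (chartAt C2 p).symm) ∘ chartAt C2 p) p :=
    hf.comp ((chartAt C2 p).continuousAt (mem_chart_source C2 p))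
  refine h1.congr ?_
  filter_upwards [(chartAt C2 p).open_source.mem_nhds (mem_chart_source C2 p)] with q hq
  simp only [Function.comp_apply, (chartAt C2 p).left_inv hq]

private theorem aa_cont' {β : Type} [TopologicalSpace β] {f : M → β} (hf : ContinuousAt f p) :
    ContinuousAt (f ∘ (chartAt C2 p).symm) (chartAt C2 p p) := by
  unfold ContinuousAt
  rw [aa_val]
  exact hf.tendsto.comp (aa_tend p)

private theorem aa_md (hc : ContinuousAt f p)
    (hd : DifferentiableAt ℂ (f ∘ (chartAt C2 p).symm) (chartAt C2 p p)) :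
    MDifferentiableAt 𝓘(ℂ, C2) 𝓘(ℂ, ℂ) f p := by
  rw [mdifferentiableAt_iff]
  refine ⟨hc, ?_⟩
  simp only [writtenInExtChartAt, mfld_simps, differentiableWithinAt_univ]
  exact hd

private theorem aa_mul {F H : C2 → ℂ} {z : C2} (hF : DifferentiableAt ℂ F z) (h0 : F z = 0)
    (hH : ContinuousAt H z) : DifferentiableAt ℂ (F * H) z := by
  have h1 : DifferentiableAt ℂ (fun w => F w * H z) z := hF.mul_const _
  have h2 : HasFDerivAt (fun w => F w * (H w - H z)) (0 : C2 →L[ℂ] ℂ) z := by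
    rw [hasFDerivAt_iff_isLittleO]
    have a1 : (fun w => F w) =O[𝓝 z] fun w => w - z := by
      simpa [h0] using hF.hasFDerivAt.isBigO_sub
    have a2 : (fun w => H w - H z) =o[𝓝 z] fun _ => (1 : ℝ) := by
      rw [Asymptotics.isLittleO_one_iff]
      simpa using hH.tendsto.sub_const (H z)
    have a3 := a1.norm_right.mul_isLittleO a2
    simpa [h0] using a3
  have h3 : F * H = fun w => F w * H z + F w * (H w - H z) := by
    funext w; simp only [Pi.mul_apply]; ring
  rw [h3]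
  exact h1.add h2.differentiableAt

theorem HolAt.congr (hf : HolAt f p) (e : f =ᶠ[𝓝 p] h) : HolAt h p :=
  AnalyticAt.congr hf ((aa_tend p).eventually e)
theorem holAt_const (c : ℂ) : HolAt (fun _ : M => c) p :=
  analyticAt_const
theorem holAt_one : HolAt (1 : M → ℂ) p :=
  analyticAt_const
theorem holAt_zero : HolAt (0 : M → ℂ) p :=
  analyticAt_const
theorem HolAt.add (hf : HolAt f p) (hh : HolAt h p) : HolAt (f + h) p :=
  AnalyticAt.add hf hh
theorem HolAt.neg (hf : HolAt f p) : HolAt (-f) p :=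
  AnalyticAt.neg hf
theorem HolAt.sub (hf : HolAt f p) (hh : HolAt h p) : HolAt (f - h) p :=
  AnalyticAt.sub hf hh
theorem HolAt.mul (hf : HolAt f p) (hh : HolAt h p) : HolAt (f * h) p :=
  AnalyticAt.mul hf hh
theorem HolAt.smul (c : ℂ) (hf : HolAt f p) : HolAt (c • f) p :=
  AnalyticAt.mul (holAt_const c) hf
theorem HolAt.inv (hf : HolAt f p) (h0 : f p ≠ 0) : HolAt f⁻¹ p :=
  AnalyticAt.inv hf ((aa_val f p).trans_ne h0)
theorem HolAt.div (hf : HolAt f p) (hh : HolAt h p) (h0 : h p ≠ 0) : HolAt (f / h) p :=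
  AnalyticAt.div hf hh ((aa_val h p).trans_ne h0)
theorem HolAt.pow (hf : HolAt f p) (m : ℕ) : HolAt (f ^ m) p :=
  AnalyticAt.pow hf m
theorem HolAt.zpow (hf : HolAt f p) (h0 : f p ≠ 0) (m : ℤ) : HolAt (f ^ m) p :=
  AnalyticAt.zpow hf ((aa_val f p).trans_ne h0)
theorem HolAt.comp (hf : HolAt f p) {φ : ℂ → ℂ} (hφ : AnalyticAt ℂ φ (f p)) :
    HolAt (fun q => φ (f q)) p :=
  AnalyticAt.comp_of_eq (g := φ) (f := f ∘ (chartAt C2 p).symm) hφ hf (aa_val f p)
theorem HolAt.exp (hf : HolAt f p) : HolAt (fun q => Complex.exp (f q)) p :=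
  hf.comp analyticAt_cexp
theorem HolAt.prod {ι : Type} {W : Finset ι} {F : ι → M → ℂ} (hF : ∀ i ∈ W, HolAt (F i) p) :
    HolAt (∏ i ∈ W, F i) p :=
  Finset.prod_induction F (fun G => HolAt G p) (fun _ _ ha hb => ha.mul hb) holAt_one hF
theorem HolAt.sum {ι : Type} {W : Finset ι} {F : ι → M → ℂ} (hF : ∀ i ∈ W, HolAt (F i) p) :
    HolAt (∑ i ∈ W, F i) p :=
  Finset.sum_induction F (fun G => HolAt G p) (fun _ _ ha hb => ha.add hb) holAt_zero hF
theorem HolAt.smAt (hf : HolAt f p) : SmAt f p := by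
  filter_upwards [AnalyticAt.eventually_analyticAt hf] with z hz
  exact (hz.contDiffAt (n := ∞)).restrict_scalars ℝ
theorem HolAt.continuousAt (hf : HolAt f p) : ContinuousAt f p :=
  aa_cont (AnalyticAt.continuousAt hf)

theorem SmAt.congr (hf : SmAt f p) (e : f =ᶠ[𝓝 p] h) : SmAt h p := by
  have e1 : f ∘ (chartAt C2 p).symm =ᶠ[𝓝 (chartAt C2 p p)] h ∘ (chartAt C2 p).symm :=
    (aa_tend p).eventually e
  filter_upwards [hf, e1.eventuallyEq_nhds] with z h1 h2
  exact h1.congr_of_eventuallyEq h2.symm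
theorem smAt_const (c : ℂ) : SmAt (fun _ : M => c) p :=
  Eventually.of_forall fun _ => contDiffAt_const
theorem smAt_one : SmAt (1 : M → ℂ) p :=
  Eventually.of_forall fun _ => contDiffAt_const
theorem smAt_zero : SmAt (0 : M → ℂ) p :=
  Eventually.of_forall fun _ => contDiffAt_const
theorem SmAt.add (hf : SmAt f p) (hh : SmAt h p) : SmAt (f + h) p := by
  filter_upwards [hf, hh] with z h1 h2
  exact h1.add h2
theorem SmAt.neg (hf : SmAt f p) : SmAt (-f) p := by
  filter_upwards [hf] with z h1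
  exact h1.neg
theorem SmAt.sub (hf : SmAt f p) (hh : SmAt h p) : SmAt (f - h) p := by
  filter_upwards [hf, hh] with z h1 h2
  exact h1.sub h2
theorem SmAt.mul (hf : SmAt f p) (hh : SmAt h p) : SmAt (f * h) p := by
  filter_upwards [hf, hh] with z h1 h2
  exact h1.mul h2
theorem SmAt.smul (c : ℂ) (hf : SmAt f p) : SmAt (c • f) p :=
  (smAt_const c).mul hf
theorem SmAt.inv (hf : SmAt f p) (h0 : f p ≠ 0) : SmAt f⁻¹ p := by
  have hc := (Eventually.self_of_nhds hf).continuousAt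
  have h1 := hc.eventually_ne ((aa_val f p).trans_ne h0)
  filter_upwards [hf, h1] with z h2 h3
  exact h2.inv h3
theorem SmAt.div (hf : SmAt f p) (hh : SmAt h p) (h0 : h p ≠ 0) : SmAt (f / h) p := by
  rw [div_eq_mul_inv]
  exact hf.mul (hh.inv h0)
theorem SmAt.pow (hf : SmAt f p) (m : ℕ) : SmAt (f ^ m) p := by
  filter_upwards [hf] with z h1
  exact h1.pow m
theorem SmAt.zpow (hf : SmAt f p) (h0 : f p ≠ 0) (m : ℤ) : SmAt (f ^ m) p := by
  obtain ⟨k, rfl | rfl⟩ := m.eq_nat_or_neg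
  · rw [zpow_natCast]; exact hf.pow k
  · rw [zpow_neg, zpow_natCast]
    exact (hf.pow k).inv (pow_ne_zero k h0)
theorem SmAt.comp (hf : SmAt f p) {φ : ℂ → ℂ} (hφ : ∀ᶠ z in 𝓝 (f p), ContDiffAt ℝ ∞ φ z) :
    SmAt (fun q => φ (f q)) p := by
  have hc := (Eventually.self_of_nhds hf).continuousAt.tendsto
  rw [aa_val] at hc
  filter_upwards [hf, hc.eventually hφ] with z h2 h3
  exact ContDiffAt.comp (g := φ) (f := f ∘ (chartAt C2 p).symm) z h3 h2
theorem SmAt.comp' (hf : SmAt f p) {φ : ℂ → ℂ} (hφ : ContDiff ℝ ∞ φ) :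
    SmAt (fun q => φ (f q)) p :=
  hf.comp (Eventually.of_forall fun _ => hφ.contDiffAt)
theorem SmAt.exp (hf : SmAt f p) : SmAt (fun q => Complex.exp (f q)) p :=
  hf.comp' Complex.contDiff_exp
theorem SmAt.conj (hf : SmAt f p) : SmAt (fun q => (starRingEnd ℂ) (f q)) p :=
  hf.comp' Complex.conjCLE.contDiff
/-- A smooth real function of a smooth real function. -/
theorem SmAt.comp_real {t : M → ℝ} (ht : SmAt (fun q => (t q : ℂ)) p) {φ : ℝ → ℝ}
    (hφ : ∀ᶠ x in 𝓝 (t p), ContDiffAt ℝ ∞ φ x) : SmAt (fun q => (φ (t q) : ℂ)) p := by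
  have h1 : Tendsto Complex.re (𝓝 (t p : ℂ)) (𝓝 (t p)) := by
    simpa using Complex.continuous_re.tendsto (t p : ℂ)
  have h2 : ∀ᶠ z in 𝓝 (t p : ℂ), ContDiffAt ℝ ∞ (fun z : ℂ => (φ z.re : ℂ)) z := by
    filter_upwards [h1.eventually hφ] with z hz
    exact Complex.ofRealCLM.contDiff.contDiffAt.comp z
      (ContDiffAt.comp z hz Complex.reCLM.contDiff.contDiffAt)
  simpa using ht.comp h2
theorem SmAt.norm (hf : SmAt f p) (h0 : f p ≠ 0) : SmAt (fun q => (‖f q‖ : ℂ)) p := by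
  refine hf.comp (φ := fun z => (‖z‖ : ℂ)) ?_
  filter_upwards [eventually_ne_nhds h0] with z hz
  exact Complex.ofRealCLM.contDiff.contDiffAt.comp z (contDiffAt_norm ℝ hz)
theorem SmAt.prod {ι : Type} {W : Finset ι} {F : ι → M → ℂ} (hF : ∀ i ∈ W, SmAt (F i) p) :
    SmAt (∏ i ∈ W, F i) p :=
  Finset.prod_induction F (fun G => SmAt G p) (fun _ _ ha hb => ha.mul hb) smAt_one hF
theorem SmAt.sum {ι : Type} {W : Finset ι} {F : ι → M → ℂ} (hF : ∀ i ∈ W, SmAt (F i) p) :
    SmAt (∑ i ∈ W, F i) p :=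
  Finset.sum_induction F (fun G => SmAt G p) (fun _ _ ha hb => ha.add hb) smAt_zero hF
theorem SmAt.continuousAt (hf : SmAt f p) : ContinuousAt f p :=
  aa_cont (Eventually.self_of_nhds hf).continuousAt

/-- A holomorphic germ is complex differentiable at the point. -/
theorem HolAt.cd (hf : HolAt f p) : MDifferentiableAt 𝓘(ℂ, C2) 𝓘(ℂ, ℂ) f p :=
  aa_md hf.continuousAt (AnalyticAt.differentiableAt hf)

/-- A holomorphic germ with a zero times a continuous germ is differentiable at the point. -/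
theorem HolAt.cd_mul (hf : HolAt f p) (h0 : f p = 0) (hh : ContinuousAt h p) :
    MDifferentiableAt 𝓘(ℂ, C2) 𝓘(ℂ, ℂ) (f * h) p :=
  aa_md (hf.continuousAt.mul hh)
    (aa_mul (AnalyticAt.differentiableAt hf) ((aa_val f p).trans h0) (aa_cont' hh))

theorem holAt_iff_contMDiffAt : HolAt f p ↔ ContMDiffAt 𝓘(ℂ, C2) 𝓘(ℂ, ℂ) ω f p := by
  rw [contMDiffAt_iff, contDiffWithinAt_omega_iff_analyticWithinAt]
  simp only [mfld_simps, analyticWithinAt_univ]
  exact ⟨fun hf => ⟨hf.continuousAt, hf⟩, fun hf => hf.2⟩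

end Vale.Agent.P267
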