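import Vale.Agent.P267.AA

/-! P267: the periodic atlas. -/

open scoped Manifold ContDiff Topology
open Filter Metric Set

noncomputable section

namespace Vale.Agent.P267

set_option linter.unusedSectionVars false

variable {M : Type} [TopologicalSpace M] [ChartedSpace C2 M] [T2Space M]

/-- Charts that are compatible with the complex structure. -/
structure IsCh (P : OpenPartialHomeomorph M C2) : Prop where
  hol : ∀ p ∈ P.source, ∀ f, HolAt f p ↔ AnalyticAt ℂ (f ∘ P.symm) (P p)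
  sm : ∀ p ∈ P.source, ∀ f, SmAt f p ↔ ∀ᶠ z in 𝓝 (P p), ContDiffAt ℝ ∞ (f ∘ P.symm) z

theorem AB_hol {P : OpenPartialHomeomorph M C2} (hP : IsCh P) {p : M} (hp : p ∈ P.source)
    {F : C2 → ℂ} (hF : AnalyticAt ℂ F (P p)) : HolAt (F ∘ P) p := by
  refine (hP.hol p hp _).2 (hF.congr ?_)
  filter_upwards [P.eventually_right_inverse' hp] with z hz
  simp only [Function.comp_apply, hz]

theorem AB_sm {F : C2 → ℂ} {ψ : C2 → C2} (hψ : ContDiff ℝ ∞ ψ) {w : C2}
    (h : ∀ᶠ z in 𝓝 (ψ w), ContDiffAt ℝ ∞ F z) : ∀ᶠ z in 𝓝 w, ContDiffAt ℝ ∞ (F ∘ ψ) z :=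
  ((hψ.continuous.tendsto w).eventually h).mono fun z hz => hz.comp z hψ.contDiffAt

theorem AB_gz (g : M ≃ₜ M) {R : (M → ℂ) → M → Prop} (hR : ∀ f p, R (f ∘ g) p ↔ R f (g p))
    (k : ℤ) : ∀ f p, R (f ∘ (g ^ k : M ≃ₜ M)) p ↔ R f ((g ^ k) p) := by
  have e : ∀ (j : ℤ) (f : M → ℂ), f ∘ (g ^ (j + 1) : M ≃ₜ M) = (f ∘ (g ^ j : M ≃ₜ M)) ∘ g := by
    intro j f
    rw [zpow_add_one]
    rfl
  have e' : ∀ (j : ℤ) (p : M), (g ^ (j + 1)) p = (g ^ j) (g p) := by
    intro j p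
    rw [zpow_add_one]
    rfl
  induction k using Int.induction_on with
  | zero => intro f p; rw [zpow_zero]; exact Iff.rfl
  | succ k ih => intro f p; rw [e, hR, ih, e']
  | pred k ih =>
    intro f p
    obtain ⟨q, rfl⟩ := g.surjective p
    rw [← hR, ← e, ← e', sub_add_cancel, ih]

theorem IsCh.coord {P : OpenPartialHomeomorph M C2} (hP : IsCh P) {p : M} (hp : p ∈ P.source)
    (j : Fin 2) : HolAt (fun q => P q j) p :=
  AB_hol hP hp (F := fun z => z j)
    ((ContinuousLinearMap.proj j : C2 →L[ℂ] ℂ).analyticAt (P p))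

theorem IsCh.tr {P Q : OpenPartialHomeomorph M C2} (hP : IsCh P) (hQ : IsCh Q) {p : M}
    (hp : p ∈ P.source) (hq : p ∈ Q.source) : AnalyticAt ℂ (Q ∘ P.symm) (P p) :=
  analyticAt_pi_iff.2 fun j => (hP.hol p hp _).1 (hQ.coord hq j)

/-- The derivative of a transition map is invertible. -/
theorem IsCh.tr_comp {P Q : OpenPartialHomeomorph M C2} (hP : IsCh P) (hQ : IsCh Q) {p : M}
    (hp : p ∈ P.source) (hq : p ∈ Q.source) :
    (fderiv ℂ (P ∘ Q.symm) (Q p)).comp (fderiv ℂ (Q ∘ P.symm) (P p)) =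
      ContinuousLinearMap.id ℂ C2 := by
  have e : (Q ∘ P.symm) (P p) = Q p := by
    simp only [Function.comp_apply, P.left_inv hp]
  have h1 := (hP.tr hQ hp hq).differentiableAt
  have h2 := (hQ.tr hP hq hp).differentiableAt
  rw [← e] at h2
  have h3 : (P ∘ Q.symm) ∘ (Q ∘ P.symm) =ᶠ[𝓝 (P p)] id := by
    filter_upwards [P.eventually_right_inverse' hp,
      (P.tendsto_symm hp).eventually (Q.open_source.mem_nhds hq)] with z h h'
    simp only [Function.comp_apply, Q.left_inv h', h, id]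
  rw [← e, ← fderiv_comp _ h2 h1, h3.fderiv_eq, fderiv_id]

theorem IsCh.hol_fun {P : OpenPartialHomeomorph M C2} (hP : IsCh P) {p : M} (hp : p ∈ P.source)
    {F : C2 → ℂ} (hF : AnalyticAt ℂ F (P p)) : HolAt (F ∘ P) p :=
  AB_hol hP hp hF

theorem IsCh.sm_fun {P : OpenPartialHomeomorph M C2} (hP : IsCh P) {p : M} (hp : p ∈ P.source)
    {F : C2 → ℂ} (hF : ∀ᶠ z in 𝓝 (P p), ContDiffAt ℝ ∞ F z) : SmAt (F ∘ P) p := by
  refine (hP.sm p hp _).2 ?_
  filter_upwards [hF, (P.eventually_right_inverse' hp).eventually_nhds] with z h1 h2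
  refine h1.congr_of_eventuallyEq (h2.mono fun y hy => ?_)
  simp only [Function.comp_apply, hy]

/-- An affine change of a chart. -/
theorem IsCh.affine {P : OpenPartialHomeomorph M C2} (hP : IsCh P) (A : C2 ≃L[ℂ] C2) (z₀ : C2) :
    ∃ Q : OpenPartialHomeomorph M C2, IsCh Q ∧ Q.source = P.source ∧
      (∀ p, Q p = A.symm (P p - z₀)) ∧ (∀ z, Q.symm z = P.symm (z₀ + A z)) ∧
      ∀ z, z ∈ Q.target ↔ z₀ + A z ∈ P.target := by
  let h : C2 ≃ₜ C2 :=
    { toFun := fun z => A.symm (z - z₀)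
      invFun := fun z => z₀ + A z
      left_inv := fun z => by simp
      right_inv := fun z => by simp
      continuous_toFun := by fun_prop
      continuous_invFun := by fun_prop }
  have a1 : ∀ w, AnalyticAt ℂ h w := fun w =>
    (A.symm.analyticAt _).comp (analyticAt_id.sub analyticAt_const)
  have a2 : ∀ w, AnalyticAt ℂ h.symm w := fun w => analyticAt_const.add (A.analyticAt _)
  have s1 : ContDiff ℝ ∞ h := contDiff_iff_contDiffAt.2 fun w =>
    ((a1 w).contDiffAt (n := ∞)).restrict_scalars ℝ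
  have s2 : ContDiff ℝ ∞ h.symm := contDiff_iff_contDiffAt.2 fun w =>
    ((a2 w).contDiffAt (n := ∞)).restrict_scalars ℝ
  have e : ∀ F : C2 → ℂ, (F ∘ h.symm) ∘ h = F := fun F => funext fun z => by
    simp only [Function.comp_apply, h.symm_apply_apply]
  refine ⟨P.transHomeomorph h, ⟨fun p hp f => (hP.hol p hp f).trans ?_,
    fun p hp f => (hP.sm p hp f).trans ?_⟩, rfl, fun _ => rfl, fun _ => rfl, fun _ => Iff.rfl⟩
  · change _ ↔ AnalyticAt ℂ ((f ∘ P.symm) ∘ h.symm) (h (P p))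
    refine ⟨fun H => AnalyticAt.comp ?_ (a2 _), fun H => ?_⟩
    · rwa [h.symm_apply_apply]
    · rw [← e (f ∘ P.symm)]
      exact H.comp (a1 _)
  · change _ ↔ ∀ᶠ z in 𝓝 (h (P p)), ContDiffAt ℝ ∞ ((f ∘ P.symm) ∘ h.symm) z
    refine ⟨fun H => AB_sm s2 ?_, fun H => ?_⟩
    · rwa [h.symm_apply_apply]
    · rw [← e (f ∘ P.symm)]
      exact AB_sm s1 H

namespace Cov
variable (C : Cov M) {f : M → ℂ} {p : M}

theorem hol_gz (k : ℤ) : HolAt (f ∘ (C.g ^ k : M ≃ₜ M)) p ↔ HolAt f ((C.g ^ k) p) :=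
  AB_gz C.g C.hol_g k f p
theorem sm_gz (k : ℤ) : SmAt (f ∘ (C.g ^ k : M ≃ₜ M)) p ↔ SmAt f ((C.g ^ k) p) :=
  AB_gz C.g C.sm_g k f p
theorem gz_add (k m : ℤ) (p : M) : (C.g ^ (k + m)) p = (C.g ^ k) ((C.g ^ m) p) := by
  rw [zpow_add]
  rfl
theorem AB_succ (k : ℤ) (p : M) : (C.g ^ (k + 1)) p = C.g ((C.g ^ k) p) := by
  rw [add_comm, gz_add, zpow_one]
theorem t_gz (k : ℤ) (p : M) : C.t ((C.g ^ k) p) = C.t p + k := by
  induction k using Int.induction_on with
  | zero => simp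
  | succ k ih =>
    rw [AB_succ, C.shift, ih]
    push_cast
    ring
  | pred k ih =>
    have := C.shift ((C.g ^ (-(k : ℤ) - 1)) p)
    rw [← AB_succ, sub_add_cancel, ih] at this
    push_cast at this ⊢
    linarith
theorem idx_gz (k : ℤ) (p : M) : C.idx ((C.g ^ k) p) = ((C.idx p).1, (C.idx p).2 - k) := by
  induction k using Int.induction_on with
  | zero => simp
  | succ k ih => rw [AB_succ, C.idx_g, ih, sub_add_eq_sub_sub]
  | pred k ih =>
    have := C.idx_g ((C.g ^ (-(k : ℤ) - 1)) p)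
    rw [← AB_succ, sub_add_cancel, ih, Prod.mk.injEq] at this
    refine Prod.ext this.1.symm ?_
    have h2 := this.2
    simp only
    omega
theorem ch_apply (i : C.I) (p : M) : C.ch i p = C.e i.1 ((C.g ^ i.2) p) := rfl
theorem ch_symm (i : C.I) (z : C2) : (C.ch i).symm z = (C.g ^ (-i.2)) ((C.e i.1).symm z) := by
  rw [zpow_neg]
  rfl
theorem ch_source (i : C.I) (p : M) :
    p ∈ (C.ch i).source ↔ (C.g ^ i.2) p ∈ (C.e i.1).source := by
  simp [ch, shiftCh]
theorem ch_target (i : C.I) : (C.ch i).target = ball 0 4 := by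
  simp [ch, shiftCh, C.tgt]
theorem ch_shift (i : C.I) (k : ℤ) (p : M) :
    C.ch (i.1, i.2 - k) ((C.g ^ k) p) = C.ch i p := by
  rw [ch_apply, ch_apply, ← gz_add, sub_add_cancel]
theorem ch_symm_shift (i : C.I) (k : ℤ) (z : C2) :
    (C.ch (i.1, i.2 - k)).symm z = (C.g ^ k) ((C.ch i).symm z) := by
  rw [ch_symm, ch_symm, ← gz_add, neg_sub, sub_eq_add_neg]
theorem U_shift (i : C.I) (k : ℤ) (r : ℝ) (p : M) :
    (C.g ^ k) p ∈ C.U (i.1, i.2 - k) r ↔ p ∈ C.U i r := by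
  simp only [U, mem_ofPred_eq, ch_shift, ch_source, ← gz_add, sub_add_cancel]
theorem isCh (i : C.I) : IsCh (C.ch i) := by
  have e : ∀ f : M → ℂ, (f ∘ (C.g ^ (-i.2) : M ≃ₜ M)) ∘ (C.g ^ i.2 : M ≃ₜ M) = f := fun f =>
    funext fun q => by
      simp only [Function.comp_apply]
      rw [← gz_add, neg_add_cancel, zpow_zero]
      rfl
  have e' : ∀ f : M → ℂ, f ∘ (C.ch i).symm = (f ∘ (C.g ^ (-i.2) : M ≃ₜ M)) ∘ (C.e i.1).symm :=
    fun f => funext fun z => by simp only [Function.comp_apply, ch_symm]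
  refine ⟨fun p hp f => ?_, fun p hp f => ?_⟩
  · rw [e', ch_apply, ← C.hol _ _ ((C.ch_source i p).1 hp), ← hol_gz, e]
  · rw [e', ch_apply, ← C.sm _ _ ((C.ch_source i p).1 hp), ← sm_gz, e]
theorem isOpen_U (i : C.I) (r : ℝ) : IsOpen (C.U i r) := by
  have e : C.U i r = (C.ch i).source ∩ C.ch i ⁻¹' ball 0 r := by
    ext p
    simp only [U, mem_ofPred_eq, mem_inter_iff, mem_preimage, mem_ball_zero_iff]
  rw [e]
  exact (C.ch i).isOpen_inter_preimage isOpen_ball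
theorem U_mono (i : C.I) {r r' : ℝ} (h : r ≤ r') : C.U i r ⊆ C.U i r' :=
  fun _ hp => ⟨hp.1, hp.2.trans_le h⟩
theorem mem_U_idx (p : M) : p ∈ C.U (C.idx p) 1 :=
  ⟨(C.ch_source _ p).2 (C.idx_mem p).1, (C.idx_mem p).2⟩
theorem symm_mem_U (i : C.I) {r : ℝ} (hr : r ≤ 4) {z : C2} (hz : ‖z‖ < r) :
    (C.ch i).symm z ∈ C.U i r ∧ C.ch i ((C.ch i).symm z) = z := by
  have ht : z ∈ (C.ch i).target := by
    rw [ch_target]
    exact mem_ball_zero_iff.2 (hz.trans_le hr)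
  have e := (C.ch i).right_inv ht
  exact ⟨⟨(C.ch i).map_target ht, by rw [e]; exact hz⟩, e⟩
theorem t_ch {i : C.I} (hp : p ∈ (C.ch i).source) : |C.t p + i.2| ≤ C.R := by
  rw [← t_gz]
  exact C.t_bd _ _ ((C.ch_source i p).1 hp)
include C in
theorem hol_ev (hf : HolAt f p) : ∀ᶠ q in 𝓝 p, HolAt f q := by
  have hp := (C.mem_U_idx p).1
  have h := (((C.isCh _).hol p hp f).1 hf).eventually_analyticAt
  filter_upwards [((C.ch _).continuousAt hp).eventually h, (C.ch _).open_source.mem_nhds hp]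
    with q h1 h2 using ((C.isCh _).hol q h2 f).2 h1
include C in
theorem sm_ev (hf : SmAt f p) : ∀ᶠ q in 𝓝 p, SmAt f q := by
  have hp := (C.mem_U_idx p).1
  have h := (((C.isCh _).sm p hp f).1 hf).eventually_nhds
  filter_upwards [((C.ch _).continuousAt hp).eventually h, (C.ch _).open_source.mem_nhds hp]
    with q h1 h2 using ((C.isCh _).sm q h2 f).2 h1

end Cov

end Vale.Agent.P267
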