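import Vale.Agent.P267.AB
import Vale.Agent.P267C.Defs

/-! P267: constructing compatible charts. -/

open scoped Manifold ContDiff Topology
open Filter Metric Set Asymptotics

noncomputable section

namespace Vale.Agent.P267

set_option linter.unusedSectionVars false

variable {M : Type} [TopologicalSpace M] [ChartedSpace C2 M] [T2Space M]

theorem ah_ev {P Q : OpenPartialHomeomorph M C2} {y : M} (hP : y ∈ P.source) (hQ : y ∈ Q.source)
    (f : M → ℂ) : f ∘ P.symm =ᶠ[𝓝 (P y)] (f ∘ Q.symm) ∘ Q ∘ P.symm := by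
  filter_upwards [(P.tendsto_symm hP).eventually (Q.open_source.mem_nhds hQ)] with z hz
  exact congrArg f (Q.left_inv hz).symm

theorem ah_hol {P Q : OpenPartialHomeomorph M C2} {y : M} (hP : y ∈ P.source) (hQ : y ∈ Q.source)
    (h : AnalyticAt ℂ (Q ∘ P.symm) (P y)) {f : M → ℂ} (hf : AnalyticAt ℂ (f ∘ Q.symm) (Q y)) :
    AnalyticAt ℂ (f ∘ P.symm) (P y) :=
  (hf.comp_of_eq h (congrArg Q (P.left_inv hP))).congr (ah_ev hP hQ f).symm

theorem ah_sm {P Q : OpenPartialHomeomorph M C2} {y : M} (hP : y ∈ P.source) (hQ : y ∈ Q.source)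
    (h : AnalyticAt ℂ (Q ∘ P.symm) (P y)) {f : M → ℂ}
    (hf : ∀ᶠ z in 𝓝 (Q y), ContDiffAt ℝ ∞ (f ∘ Q.symm) z) :
    ∀ᶠ z in 𝓝 (P y), ContDiffAt ℝ ∞ (f ∘ P.symm) z := by
  have e : (Q ∘ P.symm) (P y) = Q y := congrArg Q (P.left_inv hP)
  filter_upwards [h.continuousAt.eventually (e ▸ hf), h.eventually_analyticAt,
    (ah_ev hP hQ f).eventuallyEq_nhds] with z h1 h2 h3
  exact (h1.comp z (h2.contDiffAt.restrict_scalars ℝ)).congr_of_eventuallyEq h3

theorem isCh_of {P : OpenPartialHomeomorph M C2}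
    (h1 : ∀ y ∈ P.source, AnalyticAt ℂ (chartAt C2 y ∘ P.symm) (P y))
    (h2 : ∀ y ∈ P.source, AnalyticAt ℂ (P ∘ (chartAt C2 y).symm) (chartAt C2 y y)) :
    IsCh P :=
  ⟨fun y hy _ => ⟨ah_hol hy (mem_chart_source C2 y) (h1 y hy),
      ah_hol (mem_chart_source C2 y) hy (h2 y hy)⟩,
    fun y hy _ => ⟨ah_sm hy (mem_chart_source C2 y) (h1 y hy),
      ah_sm (mem_chart_source C2 y) hy (h2 y hy)⟩⟩

variable [IsManifold 𝓘(ℂ, C2) ω M]

theorem ah_c {p q : M} (hq : q ∈ (chartAt C2 p).source) :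
    ContMDiffAt 𝓘(ℂ, C2) 𝓘(ℂ, C2) ω (chartAt C2 p) q :=
  contMDiffOn_chart.contMDiffAt ((chartAt C2 p).open_source.mem_nhds hq)

theorem ah_cs {p q : M} (hq : q ∈ (chartAt C2 p).source) :
    ContMDiffAt 𝓘(ℂ, C2) 𝓘(ℂ, C2) ω (chartAt C2 p).symm (chartAt C2 p q) :=
  contMDiffOn_chart_symm.contMDiffAt
    ((chartAt C2 p).open_target.mem_nhds ((chartAt C2 p).map_source hq))

theorem ah_adm {P : OpenPartialHomeomorph M C2}
    (h1 : ∀ y ∈ P.source, ContMDiffAt 𝓘(ℂ, C2) 𝓘(ℂ, C2) ω P y)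
    (h2 : ∀ y ∈ P.source, ContMDiffAt 𝓘(ℂ, C2) 𝓘(ℂ, C2) ω P.symm (P y)) : IsCh P :=
  isCh_of
    (fun y hy => (contMDiffAt_iff_contDiffAt.1
      ((ah_c (mem_chart_source C2 y)).comp_of_eq (h2 y hy) (P.left_inv hy))).analyticAt)
    fun y hy => (contMDiffAt_iff_contDiffAt.1 ((h1 y hy).comp_of_eq (ah_cs (mem_chart_source C2 y))
      ((chartAt C2 y).left_inv (mem_chart_source C2 y)))).analyticAt

theorem isCh_chartAt (p : M) : IsCh (chartAt C2 p) :=
  ah_adm (fun _ hy => ah_c hy) fun _ hy => ah_cs hy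

theorem exists_ch (p : M) {N : Set M} (hN : N ∈ 𝓝 p) : ∃ P : OpenPartialHomeomorph M C2,
    IsCh P ∧ p ∈ P.source ∧ P p = 0 ∧ P.target = ball 0 4 ∧ P.source ⊆ N := by
  let c := chartAt C2 p
  have hp : p ∈ c.source := mem_chart_source C2 p
  have hW : c.target ∩ c.symm ⁻¹' N ∈ 𝓝 (c p) := by
    refine inter_mem (c.open_target.mem_nhds (c.map_source hp)) ?_
    refine (c.continuousAt_symm (c.map_source hp)).preimage_mem_nhds ?_
    rwa [c.left_inv hp]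
  obtain ⟨r, hr, hb⟩ := Metric.mem_nhds_iff.1 hW
  obtain ⟨s, hs⟩ : ∃ s : ℂ, s = ((r / 4 : ℝ) : ℂ) := ⟨_, rfl⟩
  have hs1 : ‖s‖ = r / 4 := by
    rw [hs, Complex.norm_real, Real.norm_of_nonneg (by positivity)]
  have hs0 : s ≠ 0 := norm_pos_iff.1 (by rw [hs1]; positivity)
  have c1 : ContDiff ℂ ω fun w : C2 => c p + s • w := contDiff_const.add (contDiff_id.const_smul s)
  have c2 : ContDiff ℂ ω fun z : C2 => s⁻¹ • (z - c p) :=
    (contDiff_id.sub contDiff_const).const_smul _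
  let B : C2 ≃ₜ C2 :=
    { toFun := fun w => c p + s • w
      invFun := fun z => s⁻¹ • (z - c p)
      left_inv := fun w => by simp [smul_smul, hs0]
      right_inv := fun z => by simp [smul_smul, hs0]
      continuous_toFun := c1.continuous
      continuous_invFun := c2.continuous }
  have hB : ∀ w ∈ ball (0 : C2) 4, B w ∈ c.target ∩ c.symm ⁻¹' N := by
    intro w hw
    refine hb ?_
    rw [mem_ball_zero_iff] at hw
    change c p + s • w ∈ _
    rw [mem_ball_iff_norm, add_sub_cancel_left, norm_smul, hs1]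
    nlinarith
  let F := (B.toOpenPartialHomeomorph.trans c.symm).restrOpen (ball 0 4) isOpen_ball
  have hf : F.source = ball 0 4 :=
    Subset.antisymm inter_subset_right fun w hw => ⟨⟨mem_univ w, (hB w hw).1⟩, hw⟩
  have h0 : F.symm p = 0 := by
    change s⁻¹ • (c p - c p) = 0
    rw [sub_self, smul_zero]
  refine ⟨F.symm, ah_adm (fun q hq => ?_) fun q hq => ?_, ⟨⟨hp, mem_univ _⟩, ?_⟩, h0, hf,
    fun q hq => ?_⟩
  · exact c2.contMDiff.contMDiffAt.comp q (ah_c hq.1.1)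
  · have h2 : ContMDiffAt 𝓘(ℂ, C2) 𝓘(ℂ, C2) ω c.symm (B (F.symm q)) :=
      contMDiffOn_chart_symm.contMDiffAt (c.open_target.mem_nhds (hB _ hq.2).1)
    exact h2.comp (F.symm q) c1.contMDiff.contMDiffAt
  · change F.symm p ∈ ball (0 : C2) 4
    rw [h0]
    exact mem_ball_self (by norm_num)
  · have h1 : F (F.symm q) ∈ N := (hB _ hq.2).2
    rwa [F.right_inv hq] at h1

theorem comp_homeo (g : M ≃ₜ M) (hg : ContMDiff 𝓘(ℂ, C2) 𝓘(ℂ, C2) ω g)
    (hg' : ContMDiff 𝓘(ℂ, C2) 𝓘(ℂ, C2) ω g.symm) (f : M → ℂ) (p : M) :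
    (HolAt (f ∘ g) p ↔ HolAt f (g p)) ∧ (SmAt (f ∘ g) p ↔ SmAt f (g p)) := by
  let P := g.toOpenPartialHomeomorph.trans (chartAt C2 (g p))
  have hP : IsCh P := by
    refine ah_adm (fun y hy => (ah_c (p := g p) (q := g y) hy.2).comp y (hg y)) fun y hy => ?_
    exact (hg' _).comp (P y) (ah_cs (p := g p) (q := g y) hy.2)
  have hp : p ∈ P.source := ⟨mem_univ _, mem_chart_source C2 (g p)⟩
  have e : (f ∘ g) ∘ P.symm = f ∘ (chartAt C2 (g p)).symm :=
    funext fun z => congrArg f (g.apply_symm_apply _)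
  rw [hP.hol p hp, hP.sm p hp, e]
  exact ⟨Iff.rfl, Iff.rfl⟩

theorem contMDiff_zpow (g : M ≃ₜ M) (hg : ContMDiff 𝓘(ℂ, C2) 𝓘(ℂ, C2) ω g)
    (hg' : ContMDiff 𝓘(ℂ, C2) 𝓘(ℂ, C2) ω g.symm) (k : ℤ) :
    ContMDiff 𝓘(ℂ, C2) 𝓘(ℂ, C2) ω (g ^ k : M ≃ₜ M) := by
  induction k using Int.induction_on with
  | zero => exact contMDiff_id
  | succ i ih =>
    have e : ((g ^ ((i : ℤ) + 1) : M ≃ₜ M) : M → M) = g ∘ (g ^ (i : ℤ) : M ≃ₜ M) := by
      funext q
      rw [add_comm, zpow_add, zpow_one, Homeomorph.mul_apply, Function.comp_apply]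
    rw [e]
    exact hg.comp ih
  | pred i ih =>
    have e : ((g ^ (-(i : ℤ) - 1) : M ≃ₜ M) : M → M) = g.symm ∘ (g ^ (-(i : ℤ)) : M ≃ₜ M) := by
      funext q
      rw [sub_eq_neg_add, zpow_add, zpow_neg_one, Homeomorph.mul_apply, Homeomorph.inv_apply,
        Function.comp_apply]
    rw [e]
    exact hg'.comp ih

theorem crd_chart {c : M → ℂ × ℂ} {ψ : ℂ × ℂ → M} {p : M} (h : P267C.Crd C2 c ψ p) {N : Set M}
    (hN : N ∈ 𝓝 p) : ∃ (P : OpenPartialHomeomorph M C2) (r : ℂ), IsCh P ∧ r ≠ 0 ∧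
      p ∈ P.source ∧ P.source ⊆ N ∧ closedBall 0 3 ⊆ P.target ∧
      ∀ y ∈ P.source, (c y).1 = r * P y 0 ∧ (c y).2 = r * P y 1 := by
  have hω : (ω : WithTop ℕ∞) ≠ ∞ := by simp
  have e1 := (contMDiffAt_iff_contMDiffAt_nhds hω).1 h.an
  have e2 := (contMDiffAt_iff_contMDiffAt_nhds hω).1 h.ho
  obtain ⟨V, hV, hVo, hpV⟩ := mem_nhds_iff.1 (e1.and (h.l.and hN))
  have hψ0 : ψ 0 = p := by
    have h1 := h.l.self_of_nhds
    rwa [h.c0] at h1
  have e3 : ∀ᶠ v in 𝓝 (0 : ℂ × ℂ), ψ v ∈ V :=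
    h.ho.continuousAt.preimage_mem_nhds (hψ0 ▸ hVo.mem_nhds hpV)
  obtain ⟨ρ, hρ, hb⟩ := Metric.mem_nhds_iff.1 (e2.and (h.r.and e3))
  obtain ⟨s, hs⟩ : ∃ s : ℂ, s = ((ρ / 4 : ℝ) : ℂ) := ⟨_, rfl⟩
  have hs1 : ‖s‖ = ρ / 4 := by
    rw [hs, Complex.norm_real, Real.norm_of_nonneg (by positivity)]
  have hs0 : s ≠ 0 := norm_pos_iff.1 (by rw [hs1]; positivity)
  let A : ℂ × ℂ → C2 := fun v => ![s⁻¹ * v.1, s⁻¹ * v.2]
  let B : C2 → ℂ × ℂ := fun z => (s * z 0, s * z 1)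
  have cA : ContDiff ℂ ω A := by
    refine contDiff_pi.2 fun j => ?_
    fin_cases j
    · exact contDiff_const.mul contDiff_fst
    · exact contDiff_const.mul contDiff_snd
  have cB : ContDiff ℂ ω B :=
    (contDiff_const.mul (contDiff_apply ℂ ℂ 0)).prodMk (contDiff_const.mul (contDiff_apply ℂ ℂ 1))
  have hBA : ∀ v, B (A v) = v := fun v =>
    Prod.ext (mul_inv_cancel_left₀ hs0 _) (mul_inv_cancel_left₀ hs0 _)
  have hAB : ∀ z, A (B z) = z := fun z => by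
    funext j
    fin_cases j
    · exact inv_mul_cancel_left₀ hs0 _
    · exact inv_mul_cancel_left₀ hs0 _
  have hn : ∀ z, ‖B z‖ = ρ / 4 * ‖z‖ := fun z => by
    have h1 : ‖z‖ = max ‖z 0‖ ‖z 1‖ := by
      refine le_antisymm ((pi_norm_le_iff_of_nonneg (by positivity)).2 fun j => ?_)
        (max_le (norm_le_pi_norm z 0) (norm_le_pi_norm z 1))
      fin_cases j
      · exact le_max_left _ _
      · exact le_max_right _ _
    rw [h1, mul_max_of_nonneg _ _ (by positivity), Prod.norm_def]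
    simp only [B, norm_mul, hs1]
  have hm : ∀ z, z ∈ ball (0 : C2) 4 ↔ B z ∈ ball (0 : ℂ × ℂ) ρ := fun z => by
    rw [mem_ball_zero_iff, mem_ball_zero_iff, hn]
    constructor <;> intro h1 <;> nlinarith
  have k1 : ∀ y ∈ V, ContMDiffAt 𝓘(ℂ, C2) 𝓘(ℂ, C2) ω (A ∘ c) y := fun y hy =>
    cA.contMDiff.contMDiffAt.comp y (hV hy).1
  have k2 : ∀ z ∈ ball (0 : C2) 4, ContMDiffAt 𝓘(ℂ, C2) 𝓘(ℂ, C2) ω (ψ ∘ B) z := fun z hz =>
    (hb ((hm z).1 hz)).1.comp z cB.contMDiff.contMDiffAt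
  have k3 : ∀ y ∈ V ∩ c ⁻¹' ball 0 ρ, (A ∘ c) y ∈ ball (0 : C2) 4 := fun y hy =>
    (hm _).2 (by rw [Function.comp_apply, hBA]; exact hy.2)
  let P : OpenPartialHomeomorph M C2 :=
    { toFun := A ∘ c
      invFun := ψ ∘ B
      source := V ∩ c ⁻¹' ball 0 ρ
      target := ball 0 4
      map_source' := k3
      map_target' := fun z hz => ⟨(hb ((hm z).1 hz)).2.2, by
        rw [mem_preimage, Function.comp_apply, (hb ((hm z).1 hz)).2.1]
        exact (hm z).1 hz⟩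
      left_inv' := fun y hy => by
        rw [Function.comp_apply, Function.comp_apply, hBA]
        exact (hV hy.1).2.1
      right_inv' := fun z hz => by
        rw [Function.comp_apply, Function.comp_apply, (hb ((hm z).1 hz)).2.1, hAB]
      open_source := ContinuousOn.isOpen_inter_preimage
        (fun y hy => (hV hy).1.continuousAt.continuousWithinAt) hVo isOpen_ball
      open_target := isOpen_ball
      continuousOn_toFun := fun y hy => (k1 y hy.1).continuousAt.continuousWithinAt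
      continuousOn_invFun := fun z hz => (k2 z hz).continuousAt.continuousWithinAt }
  refine ⟨P, s, ah_adm (fun y hy => k1 y hy.1) fun y hy => k2 _ (k3 y hy), hs0, ⟨hpV, ?_⟩,
    fun y hy => (hV hy.1).2.2, closedBall_subset_ball (by norm_num), fun y _ => ?_⟩
  · rw [mem_preimage, h.c0]
    exact mem_ball_self hρ
  · exact ⟨(mul_inv_cancel_left₀ hs0 _).symm, (mul_inv_cancel_left₀ hs0 _).symm⟩

end Vale.Agent.P267
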