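import Vale.Agent.P267.AH

/-! P267: the periodic atlas of the cover. -/

open scoped Manifold ContDiff Topology
open Filter Metric Set Asymptotics

noncomputable section

namespace Vale.Agent.P267

set_option linter.unusedSectionVars false

variable {M : Type} [TopologicalSpace M] [ChartedSpace C2 M] [T2Space M]

/-- A periodic atlas. -/
structure Pre (g : M ≃ₜ M) (t : M → ℝ) {ι : Type} (e : ι → OpenPartialHomeomorph M C2)
    (idx : M → ι × ℤ) (R : ℝ) : Prop where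
  isCh : ∀ a, IsCh (e a)
  tgt : ∀ a, (e a).target = ball 0 4
  idx_mem : ∀ p, (g ^ (idx p).2) p ∈ (e (idx p).1).source ∧
    ‖e (idx p).1 ((g ^ (idx p).2) p)‖ < 1
  idx_g : ∀ p, idx (g p) = ((idx p).1, (idx p).2 - 1)
  hol_gz : ∀ (k : ℤ) f p, HolAt (f ∘ (g ^ k : M ≃ₜ M)) p ↔ HolAt f ((g ^ k) p)
  sm_gz : ∀ (k : ℤ) f p, SmAt (f ∘ (g ^ k : M ≃ₜ M)) p ↔ SmAt f ((g ^ k) p)
  t_cont : Continuous t
  t_gz : ∀ (k : ℤ) p, t ((g ^ k) p) = t p + k
  t_bd : ∀ a, ∀ p ∈ (e a).source, |t p| ≤ R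

/-- Near a point only finitely many translates of the charts matter. -/
theorem Pre.fin {g : M ≃ₜ M} {t : M → ℝ} {ι : Type} {e : ι → OpenPartialHomeomorph M C2}
    {idx : M → ι × ℤ} {R : ℝ} (h : Pre g t e idx R) (p : M) :
    ∃ F : Finset ℤ, ∀ᶠ q in 𝓝 p, ∀ a (k : ℤ), (g ^ k) q ∈ (e a).source → k ∈ F := by
  refine ⟨Finset.Icc ⌊-R - t p - 1⌋ ⌈R - t p + 1⌉, ?_⟩
  filter_upwards [h.t_cont.continuousAt (ball_mem_nhds (t p) one_pos)] with q hq a k hk
  have h1 := abs_le.1 (h.t_bd a _ hk)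
  have h2 := abs_lt.1 (show |t q - t p| < 1 from hq)
  rw [h.t_gz] at h1
  refine Finset.mem_Icc.2 ⟨Int.cast_le.1 ((Int.floor_le _).trans ?_),
    Int.cast_le.1 (le_trans ?_ (Int.le_ceil (R - t p + 1)))⟩ <;> linarith [h1.1, h1.2, h2.1, h2.2]

variable {X : Type} [TopologicalSpace X] [ChartedSpace C2 X] [T2Space X] [IsManifold 𝓘(ℂ, C2) ω X]
  [IsManifold 𝓘(ℂ, C2) ω M] {π : M → X} {g : M ≃ₜ M} {t : M → ℝ}

theorem IsCover.t_gz (h : IsCover π g t) (k : ℤ) (p : M) : t ((g ^ k) p) = t p + k := by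
  induction k using Int.induction_on generalizing p with
  | zero => simp
  | succ k ih =>
    rw [zpow_add_one, Homeomorph.mul_apply, ih, h.shift]
    push_cast
    ring
  | pred k ih =>
    have e := h.shift (g⁻¹ p)
    rw [← Homeomorph.mul_apply, mul_inv_cancel, Homeomorph.one_apply] at e
    rw [zpow_sub_one, Homeomorph.mul_apply, ih, e]
    push_cast
    ring

theorem IsCover.pi_gz (h : IsCover π g t) (k : ℤ) (p : M) : π ((g ^ k) p) = π p :=
  ((h.fib p _).2 ⟨k, rfl⟩).symm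

theorem IsCover.pre [CompactSpace X] (h : IsCover π g t) :
    ∃ (m : ℕ) (e : Fin m → OpenPartialHomeomorph M C2) (idx : M → Fin m × ℤ) (R : ℝ),
      Pre g t e idx R := by
  have tc : Continuous t := continuous_iff_continuousAt.2 fun p =>
    Complex.continuous_re.continuousAt.comp (h.smooth p).continuousAt
  choose P h1 h2 h3 h4 h5 using fun p : M =>
    exists_ch p (tc.continuousAt (ball_mem_nhds (t p) one_pos))
  obtain ⟨s, hs⟩ := isCompact_univ.elim_finite_subcover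
    (fun p => π '' ((P p).source ∩ P p ⁻¹' ball 0 1))
    (fun p => h.loc.isOpenMap _ ((P p).isOpen_inter_preimage isOpen_ball)) fun x _ => by
      obtain ⟨p, rfl⟩ := h.surj x
      exact mem_iUnion.2 ⟨p, p, ⟨h2 p, by simp [h3]⟩, rfl⟩
  obtain ⟨c, hc⟩ : ∃ c : Fin s.card → M, ∀ p ∈ s, ∃ a, c a = p :=
    ⟨fun a => s.equivFin.symm a, fun p hp => ⟨s.equivFin ⟨p, hp⟩, by simp⟩⟩
  have k1 : ∀ x, ∃ a r, π r = x ∧ r ∈ (P (c a)).source ∧ ‖P (c a) r‖ < 1 := fun x => by
    obtain ⟨p, hp, r, hr, e⟩ := mem_iUnion₂.1 (hs (mem_univ x))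
    obtain ⟨a, rfl⟩ := hc p hp
    exact ⟨a, r, e, hr.1, mem_ball_zero_iff.1 hr.2⟩
  choose a r e1 e2 e3 using k1
  choose k hk using fun p => (h.fib p (r (π p))).1 (e1 _).symm
  have gz := fun k : ℤ => comp_homeo (g ^ k) (contMDiff_zpow g h.hol h.hol_inv k) (by
    have := contMDiff_zpow g h.hol h.hol_inv (-k)
    rwa [zpow_neg] at this)
  refine ⟨s.card, fun a => P (c a), fun p => (a (π p), k p), ∑ a, |t (c a)| + 1,
    fun _ => h1 _, fun _ => h4 _, fun p => ?_, fun p => ?_, fun k f p => (gz k f p).1,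
    fun k f p => (gz k f p).2, tc, h.t_gz, fun a p hp => ?_⟩
  · simp only [hk]
    exact ⟨e2 _, e3 _⟩
  · have e : π (g p) = π p := by simpa using h.pi_gz 1 p
    have e4 := congrArg t (hk (g p))
    rw [e, ← hk p, h.t_gz, h.t_gz, h.shift] at e4
    rw [e]
    refine congrArg _ (Int.cast_injective (α := ℝ) ?_)
    push_cast
    linarith
  · have h6 := Finset.single_le_sum (f := fun a => |t (c a)|) (fun _ _ => abs_nonneg _)
      (Finset.mem_univ a)
    linarith [abs_sub_abs_le_abs_sub (t p) (t (c a)), show |t p - t (c a)| < 1 from h5 _ hp]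

end Vale.Agent.P267
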