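import Vale.Agent.P267.GA

/-! P267: the periodic partition of unity. -/

open scoped Manifold ContDiff Topology
open Filter Metric Set Asymptotics

noncomputable section

namespace Vale.Agent.P267

set_option linter.unusedSectionVars false

variable {M : Type} [TopologicalSpace M] [ChartedSpace C2 M] [T2Space M]

variable {g : M ≃ₜ M} {t : M → ℝ} {ι : Type} [Fintype ι] {e : ι → OpenPartialHomeomorph M C2}
  {idx : M → ι × ℤ} {R : ℝ}

/-- Periodic sums of functions supported in the charts are smooth. -/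
theorem Pre.sm_sum (h : Pre g t e idx R) {φ : ι → ℤ → M → ℂ} {p : M}
    (h0 : ∀ a k q, φ a k q ≠ 0 → (g ^ k) q ∈ (e a).source) (hs : ∀ a k, SmAt (φ a k) p) :
    SmAt (fun q => ∑ᶠ k : ℤ, ∑ a, φ a k q) p := by

  obtain ⟨F, hF⟩ := h.fin p
  refine (SmAt.sum (W := F) (F := fun k => ∑ a, φ a k) fun k _ =>
    SmAt.sum fun a _ => hs a k).congr ?_
  filter_upwards [hF] with q hq
  rw [finsum_eq_sum_of_support_subset (s := F)]
  · simp only [Finset.sum_apply]
  · intro k hk
    obtain ⟨a, -, ha⟩ := Finset.exists_ne_zero_of_sum_ne_zero hk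
    exact hq a k (h0 a k q ha)


theorem GB_bump {P : OpenPartialHomeomorph M C2} (hP : IsCh P) (ht : P.target = ball 0 4) :
    ∃ r : M → ℝ, (∀ p, SmAt (fun q => (r q : ℂ)) p) ∧ (∀ p, 0 ≤ r p) ∧
      ∀ p, r p ≠ 0 ↔ p ∈ P.source ∧ ‖P p‖ < 1 := by
  classical
  obtain ⟨β, hβ⟩ : ∃ β : ContDiffBump (0 : C2), β.rOut = 1 :=
    ⟨⟨1 / 2, 1, by norm_num, by norm_num⟩, rfl⟩
  have hs : ∀ z, β z ≠ 0 ↔ ‖z‖ < 1 := fun z => by
    rw [← Function.mem_support, β.support_eq, hβ, mem_ball_zero_iff]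
  have key : ∀ p, (if p ∈ P.source then β (P p) else 0) ≠ 0 ↔ p ∈ P.source ∧ ‖P p‖ < 1 := by
    intro p
    by_cases hp : p ∈ P.source
    · rw [if_pos hp, hs, and_iff_right hp]
    · simp [hp]
  refine ⟨fun p => if p ∈ P.source then β (P p) else 0, fun p => ?_, fun p => ?_, key⟩
  · by_cases hp : p ∈ P.source
    · have hc : ContDiff ℝ ∞ fun z : C2 => (β z : ℂ) := Complex.ofRealCLM.contDiff.comp β.contDiff
      refine (hP.sm_fun hp (Eventually.of_forall fun z => hc.contDiffAt)).congr ?_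
      filter_upwards [P.open_source.mem_nhds hp] with q hq
      simp only [Function.comp_apply, if_pos hq]
    · have hsub : closedBall (0 : C2) 1 ⊆ P.target := by
        rw [ht]
        exact closedBall_subset_ball (by norm_num)
      have hK : IsClosed (P.symm '' closedBall 0 1) :=
        ((isCompact_closedBall (0 : C2) 1).image_of_continuousOn
          (P.continuousOn_symm.mono hsub)).isClosed
      have hpK : p ∉ P.symm '' closedBall 0 1 := by
        rintro ⟨z, hz, rfl⟩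
        exact hp (P.map_target (hsub hz))
      refine (smAt_const 0).congr ?_
      filter_upwards [hK.isOpen_compl.mem_nhds hpK] with q hq
      by_contra hne
      obtain ⟨h1, h2⟩ := (key q).1 fun h => hne (by rw [h, Complex.ofReal_zero])
      exact hq ⟨P q, mem_closedBall_zero_iff.2 h2.le, P.left_inv h1⟩
  · beta_reduce
    split_ifs
    · exact β.nonneg
    · exact le_rfl

theorem Pre.part (h : Pre g t e idx R) : ∃ ρ : ι → M → ℝ,
    (∀ a p, SmAt (fun q => (ρ a q : ℂ)) p) ∧ (∀ a p, 0 ≤ ρ a p) ∧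
    (∀ a p, ρ a p ≠ 0 → p ∈ (e a).source ∧ ‖e a p‖ ≤ 1) ∧
    ∀ p, ∑ᶠ k : ℤ, ∑ a, ρ a ((g ^ k) p) = 1 := by

  choose r r1 r2 r3 using fun a => GB_bump (h.isCh a) (h.tgt a)
  obtain ⟨σ, hσ⟩ : ∃ σ : M → ℝ, ∀ p, σ p = ∑ᶠ k : ℤ, ∑ a, r a ((g ^ k) p) := ⟨_, fun _ => rfl⟩
  have hfin : ∀ p, Function.HasFiniteSupport fun k : ℤ => ∑ a, r a ((g ^ k) p) := fun p => by
    obtain ⟨F, hF⟩ := h.fin p
    refine F.finite_toSet.subset fun k hk => ?_
    obtain ⟨a, -, ha⟩ := Finset.exists_ne_zero_of_sum_ne_zero hk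
    exact hF.self_of_nhds a k ((r3 a _).1 ha).1
  have hpos : ∀ p, 0 < σ p := fun p => by
    rw [hσ]
    refine lt_of_lt_of_le ?_ (single_le_finsum (idx p).2 (hfin p)
      fun k => Finset.sum_nonneg fun a _ => r2 a _)
    refine lt_of_lt_of_le ?_ (Finset.single_le_sum (f := fun a => r a ((g ^ (idx p).2) p))
      (fun a _ => r2 a _) (Finset.mem_univ (idx p).1))
    exact (r2 _ _).lt_of_ne' ((r3 _ _).2 (h.idx_mem p))
  have hper : ∀ (m : ℤ) p, σ ((g ^ m) p) = σ p := fun m p => by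
    rw [hσ, hσ, ← finsum_comp_equiv (Equiv.addRight m) (f := fun k : ℤ => ∑ a, r a ((g ^ k) p))]
    refine finsum_congr fun k => ?_
    rw [Equiv.coe_addRight, zpow_add, Homeomorph.mul_apply]
  have hsm : ∀ p, SmAt (fun q => (σ q : ℂ)) p := fun p => by
    have h1 := h.sm_sum (φ := fun a k q => (r a ((g ^ k) q) : ℂ)) (p := p)
      (fun a k q ha => ((r3 a _).1 fun h => ha (by rw [h, Complex.ofReal_zero])).1)
      (fun a k => (h.sm_gz k (fun q => (r a q : ℂ)) p).2 (r1 a _))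
    refine h1.congr (Eventually.of_forall fun q => ?_)
    have h2 := map_finsum Complex.ofRealHom (hfin q)
    simp only [Complex.ofRealHom_eq_coe, Complex.ofReal_sum] at h2
    simp only [hσ, h2]
  refine ⟨fun a p => r a p * (σ p)⁻¹, fun a p => ?_,
    fun a p => mul_nonneg (r2 a p) (inv_nonneg.2 (hpos p).le), fun a p ha => ?_, fun p => ?_⟩
  · refine ((r1 a p).mul ((hsm p).inv (Complex.ofReal_ne_zero.2 (hpos p).ne'))).congr
      (Eventually.of_forall fun q => ?_)
    simp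
  · obtain ⟨h1, h2⟩ := (r3 a p).1 (left_ne_zero_of_mul ha)
    exact ⟨h1, h2.le⟩
  · simp only [hper, ← Finset.sum_mul]
    rw [← finsum_mul, ← hσ, mul_inv_cancel₀ (hpos p).ne']

end Vale.Agent.P267
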