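import Vale.Agent.P267.GA

/-! P267: the canonical bundle in the periodic charts. -/

open scoped Manifold ContDiff Topology
open Filter Metric Set Asymptotics

noncomputable section

namespace Vale.Agent.P267

set_option linter.unusedSectionVars false

variable {M : Type} [TopologicalSpace M] [ChartedSpace C2 M] [T2Space M]

variable {X : Type} [TopologicalSpace X] [ChartedSpace C2 X] [T2Space X] [IsManifold 𝓘(ℂ, C2) ω X]
  [IsManifold 𝓘(ℂ, C2) ω M] {π : M → X} {g : M ≃ₜ M} {t : M → ℝ}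
variable {ι : Type} {e : ι → OpenPartialHomeomorph M C2} {idx : M → ι × ℤ} {R : ℝ}

/-- The determinant of the derivative of an analytic map is analytic. -/
theorem analyticAt_det {T : C2 → C2} {z : C2} (h : AnalyticAt ℂ T z) :
    AnalyticAt ℂ (fun w => (fderiv ℂ T w).det) z := by
  have e : ∀ A : C2 →L[ℂ] C2, A.det = A (Pi.single 0 1) 0 * A (Pi.single 1 1) 1 -
      A (Pi.single 1 1) 0 * A (Pi.single 0 1) 1 := fun A => by
    rw [ContinuousLinearMap.det, ← LinearMap.det_toMatrix', Matrix.det_fin_two]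
    simp
  have k : ∀ (v : C2) (j : Fin 2), AnalyticAt ℂ (fun w => fderiv ℂ T w v j) z := fun v j =>
    analyticAt_pi_iff.1 (((ContinuousLinearMap.apply ℂ C2 v).analyticAt _).comp h.fderiv) j
  simp only [e]
  exact ((k _ _).mul (k _ _)).sub ((k _ _).mul (k _ _))

theorem gc_an {M N : Type} [TopologicalSpace M] [ChartedSpace C2 M] [T2Space M]
    [TopologicalSpace N] [ChartedSpace C2 N] [T2Space N] {F : M → N} {p : M}
    (hF : ContMDiffAt 𝓘(ℂ, C2) 𝓘(ℂ, C2) ω F p) {P : OpenPartialHomeomorph M C2} (hP : IsCh P)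
    (hp : p ∈ P.source) {Q : OpenPartialHomeomorph N C2} (hQ : IsCh Q) (hq : F p ∈ Q.source) :
    AnalyticAt ℂ (Q ∘ F ∘ P.symm) (P p) :=
  analyticAt_pi_iff.2 fun j => (hP.hol p hp ((fun q => Q q j) ∘ F)).1
    (holAt_iff_contMDiffAt.2 ((holAt_iff_contMDiffAt.1 (hQ.coord hq j)).comp p hF))

theorem gc_det {T T₁ T₂ : C2 → C2} {z w : C2} (h1 : AnalyticAt ℂ T₁ z) (e : T₁ z = w)
    (h2 : AnalyticAt ℂ T₂ w) (h : T =ᶠ[𝓝 z] T₂ ∘ T₁) :
    (fderiv ℂ T z).det = (fderiv ℂ T₁ z).det * (fderiv ℂ T₂ w).det := by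
  subst e
  rw [h.fderiv_eq, fderiv_comp z h2.differentiableAt h1.differentiableAt, mul_comm]
  exact LinearMap.det_comp (fderiv ℂ T₂ (T₁ z) : C2 →ₗ[ℂ] C2) (fderiv ℂ T₁ z : C2 →ₗ[ℂ] C2)

/-- The projection read in charts is analytic with invertible derivative. -/
theorem IsCover.chart (h : IsCover π g t) {P : OpenPartialHomeomorph M C2} (hP : IsCh P) {p : M}
    (hp : p ∈ P.source) {x : X} (hx : π p ∈ (chartAt C2 x).source) :
    AnalyticAt ℂ (chartAt C2 x ∘ π ∘ P.symm) (P p) ∧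
      (fderiv ℂ (chartAt C2 x ∘ π ∘ P.symm) (P p)).det ≠ 0 := by
  have a := gc_an (h.loc p).contMDiffAt hP hp (isCh_chartAt x) hx
  have l : (h.loc p).localInverse (π p) = p := (h.loc p).localInverse_eventuallyEq_left.eq_of_nhds
  have b := gc_an (h.loc p).localInverse_contMDiffAt (isCh_chartAt x) hx hP (by rw [l]; exact hp)
  have ev : ∀ᶠ q in 𝓝 p, π q ∈ (chartAt C2 x).source ∧ (h.loc p).localInverse (π q) = q :=
    (show ∀ᶠ q in 𝓝 p, π q ∈ (chartAt C2 x).source from
      (h.loc p).contMDiffAt.continuousAt.preimage_mem_nhds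
        ((chartAt C2 x).open_source.mem_nhds hx)).and (h.loc p).localInverse_eventuallyEq_left
  have d := gc_det (T := id) a (by simp only [Function.comp_apply, P.left_inv hp]) b (by
    filter_upwards [(P.tendsto_symm hp).eventually ev, P.eventually_right_inverse' hp] with z h1 h2
    simp only [Function.comp_apply, id, (chartAt C2 x).left_inv h1.1, h1.2, h2])
  refine ⟨a, fun k => ?_⟩
  rw [k, zero_mul, fderiv_id] at d
  exact one_ne_zero (LinearMap.det_id.symm.trans d)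

theorem IsCover.frames (h : IsCover π g t) (hp : Pre g t e idx R) : ∃ k₀ : ι → M → ℂ,
    (∀ a, ∀ p ∈ (e a).source, k₀ a p ≠ 0) ∧
    (∀ a b (k : ℤ), ∀ p ∈ (e a).source, (g ^ k) p ∈ (e b).source →
      k₀ a p = (fderiv ℂ (e b ∘ (g ^ k : M ≃ₜ M) ∘ (e a).symm) (e a p)).det * k₀ b ((g ^ k) p)) ∧
    ∀ a (k : ℤ) p, (g ^ k) p ∈ (e a).source → ∃ J : M → ℂ, HolAt J p ∧ J p ≠ 0 ∧
      ∀ᶠ q in 𝓝 p, k₀ a ((g ^ k) q) = J q * pull π (canon X) p q := by
  have cπ : Continuous π := h.loc.contMDiff.continuous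
  refine ⟨fun a q => (fderiv ℂ (chartAt C2 (π q) ∘ π ∘ (e a).symm) (e a q)).det,
    fun a p ha => (h.chart (hp.isCh a) ha (mem_chart_source C2 _)).2, fun a b k p ha hb => ?_,
    fun a k p ha => ?_⟩
  · have ev : ∀ᶠ q in 𝓝 p, (g ^ k) q ∈ (e b).source :=
      (g ^ k).continuous.continuousAt.preimage_mem_nhds ((e b).open_source.mem_nhds hb)
    refine gc_det (gc_an (contMDiff_zpow g h.hol h.hol_inv k p) (hp.isCh a) ha (hp.isCh b) hb)
      (by simp only [Function.comp_apply, (e a).left_inv ha])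
      (h.chart (hp.isCh b) hb (mem_chart_source C2 _)).1 ?_
    filter_upwards [((e a).tendsto_symm ha).eventually ev] with z hz
    simp only [Function.comp_apply, (e b).left_inv hz, h.pi_gz]
  · have c := h.chart (hp.isCh a) ha (x := π p) (by rw [h.pi_gz]; exact mem_chart_source C2 _)
    refine ⟨((fun w => (fderiv ℂ (chartAt C2 (π p) ∘ π ∘ (e a).symm) w).det) ∘ e a) ∘
      (g ^ k : M ≃ₜ M), (hp.hol_gz k _ p).2 ((hp.isCh a).hol_fun ha (analyticAt_det c.1)), c.2, ?_⟩
    have e1 : ∀ᶠ q in 𝓝 p, (g ^ k) q ∈ (e a).source :=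
      (g ^ k).continuous.continuousAt.preimage_mem_nhds ((e a).open_source.mem_nhds ha)
    have e2 : ∀ᶠ q in 𝓝 p, π q ∈ (chartAt C2 (π p)).source :=
      cπ.continuousAt.preimage_mem_nhds (chart_source_mem_nhds C2 (π p))
    filter_upwards [e1, e2] with q h1 h2
    have h3 : π ((g ^ k) q) ∈ (chartAt C2 (π p)).source := by rwa [h.pi_gz]
    have ev : ∀ᶠ y in 𝓝 ((g ^ k) q), π y ∈ (chartAt C2 (π p)).source :=
      cπ.continuousAt.preimage_mem_nhds ((chartAt C2 (π p)).open_source.mem_nhds h3)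
    refine gc_det (h.chart (hp.isCh a) h1 h3).1
      (by simp only [Function.comp_apply, (e a).left_inv h1, h.pi_gz])
      ((isCh_chartAt (π p)).tr (isCh_chartAt (π q)) h2 (mem_chart_source C2 _)) ?_
    filter_upwards [((e a).tendsto_symm h1).eventually ev] with z hz
    simp only [Function.comp_apply, (chartAt C2 (π p)).left_inv hz, h.pi_gz]

end Vale.Agent.P267
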