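import Vale.Agent.P267.GB
import Vale.Agent.P267.GC

/-! P267: normalising the canonical frames. -/

open scoped Manifold ContDiff Topology
open Filter Metric Set Asymptotics

noncomputable section

namespace Vale.Agent.P267

set_option linter.unusedSectionVars false

variable {M : Type} [TopologicalSpace M] [ChartedSpace C2 M] [T2Space M]

variable {g : M ≃ₜ M} {t : M → ℝ} {ι : Type} [Fintype ι] {e : ι → OpenPartialHomeomorph M C2}
  {idx : M → ι × ℤ} {R : ℝ}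

theorem gd_closed (h : Pre g t e idx R) (b : ι) :
    IsClosed {p | p ∈ (e b).source ∧ ‖e b p‖ ≤ 1} := by
  have hs : closedBall (0 : C2) 1 ⊆ (e b).target := by
    rw [h.tgt]
    exact closedBall_subset_ball (by norm_num)
  have e1 : {p | p ∈ (e b).source ∧ ‖e b p‖ ≤ 1} = (e b).symm '' closedBall 0 1 := by
    refine Subset.antisymm (fun p hp => ⟨e b p, mem_closedBall_zero_iff.2 hp.2,
      (e b).left_inv hp.1⟩) ?_
    rintro _ ⟨z, hz, rfl⟩
    refine ⟨(e b).map_target (hs hz), ?_⟩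
    rw [(e b).right_inv (hs hz)]
    exact mem_closedBall_zero_iff.1 hz
  rw [e1]
  exact ((isCompact_closedBall 0 1).image_of_continuousOn
    ((e b).continuousOn_symm.mono hs)).isClosed

theorem gd_fin {β : Type} [AddCommMonoid β] {F : Finset ℤ} {q : M}
    (hF : ∀ a (k : ℤ), (g ^ k) q ∈ (e a).source → k ∈ F) {φ : ι → ℤ → β}
    (h0 : ∀ a k, φ a k ≠ 0 → (g ^ k) q ∈ (e a).source) :
    ∑ᶠ k : ℤ, ∑ a, φ a k = ∑ k ∈ F, ∑ a, φ a k := by
  refine finsum_eq_sum_of_support_subset _ fun k hk => ?_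
  obtain ⟨a, -, ha⟩ := Finset.exists_ne_zero_of_sum_ne_zero hk
  exact hF a k (h0 a k ha)

theorem gd_term (h : Pre g t e idx R) {k₀ : ι → M → ℂ}
    (h1 : ∀ a, ∀ p ∈ (e a).source, k₀ a p ≠ 0)
    (h2 : ∀ a b (k : ℤ), ∀ p ∈ (e a).source, (g ^ k) p ∈ (e b).source →
      k₀ a p = (fderiv ℂ (e b ∘ (g ^ k : M ≃ₜ M) ∘ (e a).symm) (e a p)).det * k₀ b ((g ^ k) p))
    {a b : ι} {k : ℤ} {p : M} (hp : p ∈ (e a).source) (hb : (g ^ k) p ∈ (e b).source) :
    SmAt (fun q => (‖k₀ b ((g ^ k) q) / k₀ a q‖ : ℂ)) p := by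
  have hT : AnalyticAt ℂ (e b ∘ (g ^ k : M ≃ₜ M) ∘ (e a).symm) (e a p) :=
    analyticAt_pi_iff.2 fun j =>
      ((h.isCh a).hol p hp _).1 ((h.hol_gz k _ p).2 ((h.isCh b).coord hb j))
  have hD := (h.isCh a).hol_fun hp (analyticAt_det hT)
  have hn : ((fun w => (fderiv ℂ (e b ∘ (g ^ k : M ≃ₜ M) ∘ (e a).symm) w).det) ∘ e a) p ≠ 0 :=
    left_ne_zero_of_mul (h2 a b k p hp hb ▸ h1 a p hp)
  refine (SmAt.norm (hD.inv hn).smAt (inv_ne_zero hn)).congr ?_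
  filter_upwards [(e a).open_source.mem_nhds hp,
    (g ^ k).continuous.continuousAt.preimage_mem_nhds ((e b).open_source.mem_nhds hb)] with q q1 q2
  rw [h2 a b k q q1 q2, div_mul_cancel_right₀ (h1 b _ q2)]
  rfl

theorem Pre.normal (h : Pre g t e idx R) {k₀ : ι → M → ℂ}
    (h1 : ∀ a, ∀ p ∈ (e a).source, k₀ a p ≠ 0)
    (h2 : ∀ a b (k : ℤ), ∀ p ∈ (e a).source, (g ^ k) p ∈ (e b).source →
      k₀ a p = (fderiv ℂ (e b ∘ (g ^ k : M ≃ₜ M) ∘ (e a).symm) (e a p)).det * k₀ b ((g ^ k) p)) :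
    ∃ l : M → ℂ, (∀ p, l p ≠ 0) ∧ (∀ (k : ℤ) p, l ((g ^ k) p) = l p) ∧
      ∀ a, ∀ p ∈ (e a).source, SmAt (fun q => (‖k₀ a q / l q‖ : ℂ)) p := by
  obtain ⟨ρ, r1, r2, r3, r4⟩ := h.part
  let S : M → ℝ := fun q => ∑ᶠ k : ℤ, ∑ b, ρ b ((g ^ k) q) * ‖k₀ b ((g ^ k) q)‖ ^ 2
  have hS : ∀ q, 0 < S q := fun q => by
    obtain ⟨F, hF⟩ := h.fin q
    have e1 := r4 q
    rw [gd_fin hF.self_of_nhds fun a k hk => (r3 _ _ hk).1] at e1
    obtain ⟨k, hk, e2⟩ := Finset.exists_ne_zero_of_sum_ne_zero (e1.trans_ne one_ne_zero)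
    obtain ⟨b, hb, e3⟩ := Finset.exists_ne_zero_of_sum_ne_zero e2
    simp only [S]
    rw [gd_fin hF.self_of_nhds fun a k hk => (r3 _ _ (left_ne_zero_of_mul hk)).1]
    have nn : ∀ (k : ℤ) b, 0 ≤ ρ b ((g ^ k) q) * ‖k₀ b ((g ^ k) q)‖ ^ 2 := fun k b =>
      mul_nonneg (r2 _ _) (sq_nonneg _)
    refine Finset.sum_pos' (fun k _ => Finset.sum_nonneg fun b _ => nn k b)
      ⟨k, hk, Finset.sum_pos' (fun b _ => nn k b) ⟨b, hb, ?_⟩⟩
    exact mul_pos ((r2 _ _).lt_of_ne' e3) (pow_pos (norm_pos_iff.2 (h1 _ _ (r3 _ _ e3).1)) 2)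
  refine ⟨fun q => (√(S q) : ℝ), fun q => Complex.ofReal_ne_zero.2 (Real.sqrt_pos.2 (hS q)).ne',
    fun m q => ?_, fun a p hp => ?_⟩
  · have e1 : ∀ k : ℤ, (g ^ k) ((g ^ m) q) = (g ^ (Equiv.addRight m k)) q := fun k => by
      rw [Equiv.coe_addRight, zpow_add]
      rfl
    have e2 : S ((g ^ m) q) = S q := by
      simp only [S, e1]
      exact finsum_comp_equiv (Equiv.addRight m)
        (f := fun k : ℤ => ∑ b, ρ b ((g ^ k) q) * ‖k₀ b ((g ^ k) q)‖ ^ 2)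
    simp only [e2]
  · have s1 : SmAt (fun q => ∑ᶠ k : ℤ, ∑ b,
        (ρ b ((g ^ k) q) : ℂ) * (‖k₀ b ((g ^ k) q) / k₀ a q‖ : ℂ) ^ 2) p := by
      refine h.sm_sum (φ := fun b k q =>
        (ρ b ((g ^ k) q) : ℂ) * (‖k₀ b ((g ^ k) q) / k₀ a q‖ : ℂ) ^ 2) (fun b k q hq =>
        (r3 _ _ (Complex.ofReal_ne_zero.1 (left_ne_zero_of_mul hq))).1) fun b k => ?_
      by_cases hb : (g ^ k) p ∈ (e b).source
      · exact ((h.sm_gz k _ p).2 (r1 b _)).mul ((gd_term h h1 h2 hp hb).pow 2)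
      · refine smAt_zero.congr ?_
        filter_upwards [(g ^ k).continuous.continuousAt.preimage_mem_nhds
          ((gd_closed h b).isOpen_compl.mem_nhds fun hq => hb hq.1)] with q hq
        have e0 : ρ b ((g ^ k) q) = 0 := by_contra fun h0 => hq (r3 _ _ h0)
        simp [e0]
    have s2 : SmAt (fun q => ((S q / ‖k₀ a q‖ ^ 2 : ℝ) : ℂ)) p := by
      refine s1.congr (Eventually.of_forall fun q => ?_)
      obtain ⟨F, hF⟩ := h.fin q
      simp only [S]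
      rw [gd_fin hF.self_of_nhds fun a k hk => (r3 _ _ (left_ne_zero_of_mul hk)).1,
        gd_fin hF.self_of_nhds fun a k hk =>
          (r3 _ _ (Complex.ofReal_ne_zero.1 (left_ne_zero_of_mul hk))).1]
      simp only [Finset.sum_div, norm_div, mul_div_assoc]
      push_cast
      simp only [div_pow]
    have hpos : 0 < S p / ‖k₀ a p‖ ^ 2 := div_pos (hS p) (pow_pos (norm_pos_iff.2 (h1 a p hp)) 2)
    have s3 := s2.comp_real (φ := fun x => (√x)⁻¹) (by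
      filter_upwards [eventually_gt_nhds hpos] with x hx
      exact (Real.contDiffAt_sqrt hx.ne').inv (Real.sqrt_pos.2 hx).ne')
    refine s3.congr (Eventually.of_forall fun q => ?_)
    simp only [norm_div, Complex.norm_real, Real.norm_eq_abs, abs_of_nonneg (Real.sqrt_nonneg _)]
    rw [Real.sqrt_div' _ (sq_nonneg _), Real.sqrt_sq (norm_nonneg _), inv_div]

end Vale.Agent.P267
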