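import Vale.Agent.P267.AH
import Vale.Agent.P271A.Brid

/-! P267: the Levi form in other charts, and rescaling of bundles. -/

open scoped Manifold ContDiff Topology
open Filter Metric Set Asymptotics

noncomputable section

namespace Vale.Agent.P267

set_option linter.unusedSectionVars false

variable {M : Type} [TopologicalSpace M] [ChartedSpace C2 M] [T2Space M]

theorem lev_eq {F : C2 → ℝ} {z : C2} (hF : ContDiffAt ℝ ∞ F z) (v : C2) :
    lev F z v = 4 * P271.Lev F z v := by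
  have hD : HasFDerivAt (fderiv ℝ F) (fderiv ℝ (fderiv ℝ F) z) z :=
    ((hF.fderiv_right (m := 1) (by norm_cast)).differentiableAt
      one_ne_zero).hasFDerivAt
  have ha : ∀ u : C2, HasFDerivAt (fun w => ((fderiv ℝ F w u : ℝ) : ℂ))
      (Complex.ofRealCLM.comp ((ContinuousLinearMap.apply ℝ ℝ u).comp
        (fderiv ℝ (fderiv ℝ F) z))) z := fun u =>
    Complex.ofRealCLM.hasFDerivAt.comp z ((ContinuousLinearMap.apply ℝ ℝ u).hasFDerivAt.comp z hD)
  have he : P271.dzb v (fun w => (F w : ℂ)) =ᶠ[𝓝 z] fun w => (2 : ℂ)⁻¹ *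
      (((fderiv ℝ F w v : ℝ) : ℂ) + Complex.I * ((fderiv ℝ F w (Complex.I • v) : ℝ) : ℂ)) := by
    filter_upwards [P271A.Brid_ev hF] with w hw
    have e : fderiv ℝ (fun w => (F w : ℂ)) w = Complex.ofRealCLM.comp (fderiv ℝ F w) :=
      (Complex.ofRealCLM.hasFDerivAt.comp w hw.hasFDerivAt).fderiv
    simp only [P271.dzb, e, ContinuousLinearMap.comp_apply, Complex.ofRealCLM_apply]
    ring
  have hd := (((ha v).fun_add ((ha (Complex.I • v)).const_mul Complex.I)).const_mul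
    (2 : ℂ)⁻¹).fderiv
  unfold P271.Lev P271.lev
  rw [P271A.dz_congr he]
  unfold P271.dz lev
  rw [hd]
  simp
  ring

theorem lev_comp {F : C2 → ℝ} {T : C2 → C2} {z : C2} (hF : ContDiffAt ℝ ∞ F (T z))
    (hT : AnalyticAt ℂ T z) (v : C2) : lev (F ∘ T) z v = lev F (T z) (fderiv ℂ T z v) := by
  have hc : ContDiffAt ℝ ∞ (F ∘ T) z :=
    hF.comp z ((hT.contDiffAt (n := ∞)).restrict_scalars ℝ)
  rw [lev_eq hc, lev_eq hF]
  exact congrArg (4 * ·) (P271A.Lev_comp_hol hF hT)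

theorem drift_ch [IsManifold 𝓘(ℂ, C2) ω M] {t : M → ℝ} {p : M}
    (ht : SmAt (fun q => (t q : ℂ)) p) (h : ∃ v, 0 < levi t p v)
    {P : OpenPartialHomeomorph M C2} (hP : IsCh P) (hp : p ∈ P.source) :
    ∃ v, 0 < lev (t ∘ P.symm) (P p) v := by
  obtain ⟨v, hv⟩ := h
  have hQ : IsCh (chartAt C2 p) := isCh_chartAt p
  have hq : p ∈ (chartAt C2 p).source := mem_chart_source C2 p
  have hF : ContDiffAt ℝ ∞ (t ∘ (chartAt C2 p).symm) (chartAt C2 p p) :=
    Complex.reCLM.contDiff.contDiffAt.comp _ ht.self_of_nhds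
  have hT := hP.tr hQ hp hq
  have e0 : (chartAt C2 p ∘ P.symm) (P p) = chartAt C2 p p := by
    rw [Function.comp_apply, P.left_inv hp]
  have e1 : t ∘ P.symm =ᶠ[𝓝 (P p)] (t ∘ (chartAt C2 p).symm) ∘ (chartAt C2 p ∘ P.symm) := by
    filter_upwards [(P.tendsto_symm hp).eventually (chart_source_mem_nhds C2 p)] with z hz
    simp only [Function.comp_apply, (chartAt C2 p).left_inv hz]
  refine ⟨fderiv ℂ (P ∘ (chartAt C2 p).symm) (chartAt C2 p p) v, ?_⟩
  have e2 : ∀ w, lev (t ∘ P.symm) (P p) w =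
      lev ((t ∘ (chartAt C2 p).symm) ∘ (chartAt C2 p ∘ P.symm)) (P p) w := fun w => by
    unfold lev
    rw [e1.fderiv.fderiv_eq]
  have e3 := DFunLike.congr_fun (hQ.tr_comp hP hq hp) v
  rw [ContinuousLinearMap.comp_apply, ContinuousLinearMap.id_apply] at e3
  rw [e2, lev_comp (by rw [e0]; exact hF) hT, e0, e3]
  exact hv

/-- Two presentations of the same bundle have the same sections. -/
theorem hol_rescale {k k' l s : M → ℂ} {p : M}
    (h : ∃ J : M → ℂ, HolAt J p ∧ J p ≠ 0 ∧ ∀ᶠ q in 𝓝 p, k' q * l q = J q * k q) :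
    HolAt (k * s) p ↔ HolAt (k' * (l * s)) p := by
  obtain ⟨J, hJ, h0, e⟩ := h
  constructor
  · intro hs
    refine (hJ.mul hs).congr ?_
    filter_upwards [e] with q hq
    simp only [Pi.mul_apply]
    rw [← mul_assoc, ← mul_assoc, hq]
  · intro hs
    refine ((hJ.inv h0).mul hs).congr ?_
    filter_upwards [e, hJ.continuousAt.eventually_ne h0] with q hq hq0
    simp only [Pi.mul_apply, Pi.inv_apply]
    rw [← mul_assoc (k' q), hq, mul_assoc (J q), inv_mul_cancel_left₀ hq0]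

theorem H0_rescale {G : M → M} {k k' u : M → M → ℂ} {l : M → ℂ} (h0 : ∀ p, l p ≠ 0)
    (hG : ∀ p, l (G p) = l p)
    (h : ∀ p, ∃ J : M → ℂ, HolAt J p ∧ J p ≠ 0 ∧ ∀ᶠ q in 𝓝 p, k' p q * l q = J q * k p q) :
    Module.finrank ℂ (H0 G (k / u)) = Module.finrank ℂ (H0 G (k' / u)) := by
  let L : (M → ℂ) ≃ₗ[ℂ] (M → ℂ) :=
    { toFun := fun s => l * s
      invFun := fun s => l⁻¹ * s
      map_add' := fun a b => mul_add _ _ _
      map_smul' := fun c a => mul_smul_comm _ _ _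
      left_inv := fun s => funext fun p => inv_mul_cancel_left₀ (h0 p) _
      right_inv := fun s => funext fun p => mul_inv_cancel_left₀ (h0 p) _ }
  have key : ∀ (s : M → ℂ) (p : M),
      HolAt ((k / u) p * s) p ↔ HolAt ((k' / u) p * (l * s)) p := fun s p => by
    have a1 : (k / u) p * s = k p * ((u p)⁻¹ * s) := by
      rw [Pi.div_apply, div_eq_mul_inv, mul_assoc]
    have a2 : (k' / u) p * (l * s) = k' p * (l * ((u p)⁻¹ * s)) := by
      rw [Pi.div_apply, div_eq_mul_inv, mul_assoc, mul_left_comm l]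
    rw [a1, a2]
    exact hol_rescale (h p)
  have hm : (H0 G (k / u)).map (L : (M → ℂ) →ₗ[ℂ] (M → ℂ)) = H0 G (k' / u) := by
    unfold H0
    rw [Submodule.map_span]
    refine congrArg _ (Set.ext fun s => ⟨?_, ?_⟩)
    · rintro ⟨r, ⟨h1, h2⟩, rfl⟩
      refine ⟨funext fun p => ?_, fun p => (key r p).1 (h2 p)⟩
      change l (G p) * r (G p) = l p * r p
      rw [hG, show r (G p) = r p from congrFun h1 p]
    · rintro ⟨h1, h2⟩
      have e : l * (l⁻¹ * s) = s := L.right_inv s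
      refine ⟨l⁻¹ * s, ⟨funext fun p => ?_, fun p => (key _ p).2 (by rw [e]; exact h2 p)⟩, e⟩
      change (l (G p))⁻¹ * s (G p) = (l p)⁻¹ * s p
      rw [hG, show s (G p) = s p from congrFun h1 p]
  rw [← hm, LinearEquiv.finrank_map_eq]

end Vale.Agent.P267
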