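import Vale.Agent.P267.GA

/-! P267: projecting the curves. -/

open scoped Manifold ContDiff Topology
open Filter Metric Set Asymptotics

noncomputable section

namespace Vale.Agent.P267

set_option linter.unusedSectionVars false

variable {M : Type} [TopologicalSpace M] [ChartedSpace C2 M] [T2Space M]

variable {X : Type} [TopologicalSpace X] [ChartedSpace C2 X] [T2Space X] [IsManifold 𝓘(ℂ, C2) ω X]
  [IsManifold 𝓘(ℂ, C2) ω M] {π : M → X} {g : M ≃ₜ M} {t : M → ℝ}

theorem gf_zpow (g : M ≃ₜ M) (k : ℤ) (p : M) :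
    (g.toEquiv ^ k : Equiv.Perm M) p = (g ^ k) p := by
  let F : (M ≃ₜ M) →* Equiv.Perm M :=
    { toFun := fun g => g.toEquiv, map_one' := rfl, map_mul' := fun _ _ => rfl }
  have := map_zpow F g k
  have h2 : (g.toEquiv ^ k : Equiv.Perm M) = (g ^ k).toEquiv := this.symm
  rw [h2]; rfl

theorem gf_sat (h : IsCover π g t) (A : Set M) :
    P267C.Sat g.toEquiv A = π ⁻¹' (π '' A) := by
  ext q
  simp only [P267C.Sat, mem_iUnion, mem_image, mem_preimage, gf_zpow]
  constructor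
  · rintro ⟨k, p, hp, rfl⟩
    exact ⟨p, hp, (h.fib _ _).2 ⟨k, rfl⟩⟩
  · rintro ⟨p, hp, hq⟩
    obtain ⟨k, hk⟩ := (h.fib _ _).1 hq
    exact ⟨k, p, hp, hk⟩

theorem gf_rat (h : IsCover π g t) {A : Set M} (hA : P267C.RatC C2 A) :
    IsRationalCurve (π '' A) := by
  obtain ⟨φ₀, φ₁, h0, h1, h01, hinj, rfl⟩ := hA
  have hπ : ContMDiff 𝓘(ℂ, C2) 𝓘(ℂ, C2) ω π := h.loc.contMDiff
  have hc0 : Continuous φ₀ := continuous_iff_continuousAt.2 fun z => (h0 z).continuousAt
  have hc1 : Continuous φ₁ := continuous_iff_continuousAt.2 fun z => (h1 z).continuousAt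
  let ν : OnePoint ℂ → X := fun w => OnePoint.elim w (π (φ₁ 0)) (fun z => π (φ₀ z))
  have hν0 : ∀ z : ℂ, ν z = π (φ₀ z) := fun z => rfl
  have hνi : ν OnePoint.infty = π (φ₁ 0) := rfl
  have hcont : Continuous ν := by
    rw [OnePoint.continuous_iff]
    refine ⟨?_, hπ.continuous.comp hc0⟩
    rw [hνi, Filter.coclosedCompact_eq_cocompact]
    have hinv : Tendsto (fun z : ℂ => z⁻¹) (cocompact ℂ) (𝓝 0) := by
      rw [← Metric.cobounded_eq_cocompact]; exact tendsto_inv₀_cobounded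
    have h2 : Tendsto (fun z : ℂ => π (φ₁ z⁻¹)) (cocompact ℂ) (𝓝 (π (φ₁ 0))) :=
      ((hπ.continuous.comp hc1).tendsto 0).comp hinv
    refine h2.congr' ?_
    have : ∀ᶠ z : ℂ in cocompact ℂ, z ≠ 0 :=
      (isCompact_singleton (x := (0 : ℂ))).compl_mem_cocompact
    filter_upwards [this] with z hz
    rw [hν0, h01 _ (inv_ne_zero hz), inv_inv]
  refine ⟨⟨ν, hcont⟩, ?_, ?_, ?_⟩
  · intro z
    have : ContMDiffAt 𝓘(ℂ, ℂ) 𝓘(ℂ, C2) ω (π ∘ φ₀) z := (hπ (φ₀ z)).comp z (h0 z)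
    exact this.mdifferentiableAt (by simp)
  · by_contra hne
    push Not at hne
    have hk : ∀ z : ℂ, ∃ k : ℤ, (g ^ k) (φ₀ 0) = φ₀ z := fun z =>
      (h.fib _ _).1 (hne (0 : ℂ) z)
    choose k hk using hk
    have hki : Function.Injective k := by
      intro z w hzw
      apply hinj
      rw [← hk z, ← hk w, hzw]
    have : Countable ℂ := hki.countable
    have : Countable ℝ := Complex.ofReal_injective.countable
    exact not_countable (α := ℝ) this
  · ext x
    simp only [mem_image, mem_union, mem_range, ContinuousMap.coe_mk]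
    constructor
    · rintro ⟨p, ⟨z, rfl⟩ | ⟨z, rfl⟩, rfl⟩
      · exact ⟨z, rfl⟩
      · by_cases hz : z = 0
        · subst hz; exact ⟨OnePoint.infty, rfl⟩
        · exact ⟨(z⁻¹ : ℂ), by rw [hν0, h01 z hz]⟩
    · rintro ⟨w, rfl⟩
      induction w using OnePoint.rec with
      | infty => exact ⟨φ₁ 0, Or.inr ⟨0, rfl⟩, rfl⟩
      | coe z => exact ⟨φ₀ z, Or.inl ⟨z, rfl⟩, rfl⟩

theorem IsCover.curves (h : IsCover π g t) {n : ℕ} {A : Fin n → Set M}
    (hA : ∀ i, P267C.RatC C2 (A i))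
    (hS : ∀ i j, P267C.Sat g.toEquiv (A i) = P267C.Sat g.toEquiv (A j) → i = j) :
    ∃ C : Fin n → Set X, Function.Injective C ∧ ∀ i, IsRationalCurve (C i) := by
  refine ⟨fun i => π '' A i, fun i j hij => hS i j ?_, fun i => gf_rat h (hA i)⟩
  have hij' : π '' A i = π '' A j := hij
  rw [gf_sat h, gf_sat h, hij']

end Vale.Agent.P267
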