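import Vale.Agent.P267.GD
import Vale.Agent.P267.GE

/-! P267: the working model. -/

open scoped Manifold ContDiff Topology
open Filter Metric Set Asymptotics

noncomputable section

namespace Vale.Agent.P267

set_option linter.unusedSectionVars false

variable {M : Type} [TopologicalSpace M] [ChartedSpace C2 M] [T2Space M]

variable {X : Type} [TopologicalSpace X] [ChartedSpace C2 X] [T2Space X] [IsManifold 𝓘(ℂ, C2) ω X]
  [IsManifold 𝓘(ℂ, C2) ω M] {π : M → X} {g : M ≃ₜ M} {t : M → ℝ}

theorem IsCover.model [CompactSpace X] (h : IsCover π g t) (hK : NoTwistedCanonical π g) {n : ℕ}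
    {S : Set M} {E : Fin n → M → M → ℂ} (hB : IsBasis π g S E) :
    ∃ C : Cov M, C.g = g ∧ C.t = t ∧ C.Hyp S E := by
  obtain ⟨m, e, idx, R, hp⟩ := h.pre
  obtain ⟨ρ, r1, r2, r3, r4⟩ := hp.part
  obtain ⟨k₀, k1, k2, k3⟩ := h.frames hp
  obtain ⟨l, l1, l2, l3⟩ := hp.normal k1 k2
  have key : ∀ p, ∃ J : M → ℂ, HolAt J p ∧ J p ≠ 0 ∧ ∀ᶠ q in 𝓝 p,
      k₀ (idx p).1 ((g ^ (idx p).2) q) / l ((g ^ (idx p).2) q) * l q =
        J q * pull π (canon X) p q := fun p => by
    obtain ⟨J, j1, j2, j3⟩ := k3 _ _ p (hp.idx_mem p).1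
    refine ⟨J, j1, j2, j3.mono fun q hq => ?_⟩
    rw [l2, div_mul_cancel₀ _ (l1 q), hq]
  refine ⟨{ g := g, t := t, ι := Fin m, e := e, idx := idx, ρ := ρ
            kc := fun a q => k₀ a q / l q
            R := R, tgt := hp.tgt, idx_mem := hp.idx_mem, idx_g := hp.idx_g
            hol := fun a => (hp.isCh a).hol
            sm := fun a => (hp.isCh a).sm
            hol_g := fun f p => by simpa only [zpow_one] using hp.hol_gz 1 f p
            sm_g := fun f p => by simpa only [zpow_one] using hp.sm_gz 1 f p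
            t_sm := h.smooth, shift := h.shift, t_bd := hp.t_bd
            drift := fun a z hz => by
              rw [← hp.tgt a] at hz
              have := drift_ch (h.smooth _) (h.drift _) (hp.isCh a) ((e a).map_target hz)
              rwa [(e a).right_inv hz] at this
            ρ_sm := r1, ρ_nonneg := r2, ρ_supp := r3, ρ_sum := r4
            kc_ne := fun a p hq => div_ne_zero (k1 a p hq) (l1 p)
            kc_sm := l3
            kc_tr := fun a b k p h1 h2 => by rw [k2 a b k p h1 h2, l2, mul_div_assoc] },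
    rfl, rfl, fun c s hs hc => ?_, hB.compact, hB.smooth, hB.metric, hB.triv,
    fun i j => (hB.euler i j).mono fun N hN u h1 h2 h3 => ?_, hB.indep⟩
  · have e1 : l * (s / l) = s := funext fun q => mul_div_cancel₀ _ (l1 q)
    have l4 : ∀ p, l (g p) = l p := fun p => by simpa only [zpow_one] using l2 1 p
    have h0 := hK c (s / l) (fun p => (hol_rescale (key p)).2 (by rw [e1]; exact hs p))
      fun p => by
        have h1 : s (g p) = c * s p := hc p
        rw [Pi.div_apply, Pi.div_apply, h1, l4, mul_div_assoc]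
    rw [← e1, h0, mul_zero]
  · obtain ⟨a1, a2⟩ := hN u h1 h2 h3
    refine ⟨a1, ?_⟩
    rw [← a2, H0_rescale (G := (g ^ N : M ≃ₜ M)) (u := u) l1
      (fun p => by simpa only [zpow_natCast] using l2 N p) key]
    rfl

end Vale.Agent.P267
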