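import Mathlib

/-!
Line bundles on a complex surface written in local frames, their periodic cohomology on an
infinite cyclic cover, and rational curves.
-/

open scoped Manifold ContDiff Topology
open Filter

noncomputable section

namespace Vale.Agent.P267

abbrev C2 := Fin 2 → ℂ

section Bundles
variable {M : Type} [TopologicalSpace M] [ChartedSpace C2 M]

/-- `f` is holomorphic near `p`. -/
def HolAt (f : M → ℂ) (p : M) : Prop :=
  AnalyticAt ℂ (f ∘ (chartAt C2 p).symm) (chartAt C2 p p)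

/-- `f` is smooth near `p`. -/
def SmAt (f : M → ℂ) (p : M) : Prop :=
  ∀ᶠ z in 𝓝 (chartAt C2 p p), ContDiffAt ℝ ∞ (f ∘ (chartAt C2 p).symm) z

/-- A line bundle of class `R` (holomorphic or smooth). Every fibre is identified with `ℂ` in an
arbitrary way, so a section is a function `s : M → ℂ`; its expression in the local frame chosen
near `p` is `u p * s`. The transition functions `u p / u q` are of class `R`. -/
def IsBundle (R : (M → ℂ) → M → Prop) (u : M → M → ℂ) : Prop :=
  ∀ p, ∀ᶠ q in 𝓝 p, u p q ≠ 0 ∧ R (u p / u q) q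

/-- The bundle `u` has a nowhere vanishing smooth section over `U`. -/
def TrivialOn (u : M → M → ℂ) (U : Set M) : Prop :=
  ∃ s : M → ℂ, ∀ p ∈ U, s p ≠ 0 ∧ SmAt (u p * s) p

/-- The pull-back of a bundle along a map. -/
def pull {N : Type} (f : N → M) (u : M → M → ℂ) : N → N → ℂ := fun p q => u (f p) (f q)

/-- The canonical bundle: a two-form is `s q • dz` at `q`, for the chart `z` at `q`. -/
def canon (M : Type) [TopologicalSpace M] [ChartedSpace C2 M] : M → M → ℂ := fun p q =>
  (fderiv ℂ (chartAt C2 q ∘ (chartAt C2 p).symm) (chartAt C2 p q)).det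

variable (G : M → M) (u : M → M → ℂ)

/-- Holomorphic sections on the quotient of `M` by `G`. -/
def H0 : Submodule ℂ (M → ℂ) :=
  Submodule.span ℂ {s | s ∘ G = s ∧ ∀ p, HolAt (u p * s) p}

/-- One-cocycles on the quotient by `G`: global sections of (all sections) modulo (holomorphic
sections); `f p` represents the germ at `p`. -/
def Z1 : Submodule ℂ (M → M → ℂ) :=
  Submodule.span ℂ {f | pull G f = f ∧ ∀ p, ∀ᶠ q in 𝓝 p, HolAt (u q * (f p - f q)) q}

/-- One-coboundaries on the quotient by `G`. -/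
def B1 : Submodule ℂ (M → M → ℂ) :=
  Submodule.span ℂ {f | ∃ s : M → ℂ, s ∘ G = s ∧ ∀ p, HolAt (u p * (f p - s)) p}

/-- The first cohomology group of the sheaf of holomorphic sections on the quotient by `G`. -/
abbrev H1 := Z1 G u ⧸ (B1 G u).submoduleOf (Z1 G u)

/-- On the quotient by `G`, with canonical bundle `k`, the first cohomology of `u` has finite
dimension and `h⁰(u) - h¹(u) + h⁰(k ⊗ u⁻¹) = c`. -/
def Euler (k : M → M → ℂ) (c : ℤ) : Prop :=
  FiniteDimensional ℂ (H1 G u) ∧ (Module.finrank ℂ (H0 G u) : ℤ) - Module.finrank ℂ (H1 G u) +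
    Module.finrank ℂ (H0 G (k / u)) = c

/-- The complex Hessian of a real function at `p` on the vector `v`, up to the factor four. -/
def levi (t : M → ℝ) (p : M) (v : C2) : ℝ :=
  fderiv ℝ (fderiv ℝ (t ∘ (chartAt C2 p).symm)) (chartAt C2 p p) v v +
    fderiv ℝ (fderiv ℝ (t ∘ (chartAt C2 p).symm)) (chartAt C2 p p) (Complex.I • v) (Complex.I • v)

/-- A rational curve: the image of a nonconstant holomorphic map from the Riemann sphere. -/
def IsRationalCurve (C : Set M) : Prop :=
  ∃ ν : C(OnePoint ℂ, M), MDifferentiable 𝓘(ℂ, ℂ) 𝓘(ℂ, C2) (fun z : ℂ => ν z) ∧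
    (∃ a b, ν a ≠ ν b) ∧ C = Set.range ν

end Bundles

variable {X M : Type} [TopologicalSpace X] [ChartedSpace C2 X] [TopologicalSpace M]
  [ChartedSpace C2 M]

/-- `π : M → X` is an infinite cyclic cover with deck transformation `g`, and `t` is a smooth
function with `t ∘ g = t + 1` whose complex Hessian has a positive direction at each point. -/
structure IsCover (π : M → X) (g : M ≃ₜ M) (t : M → ℝ) : Prop where
  loc : IsLocalDiffeomorph 𝓘(ℂ, C2) 𝓘(ℂ, C2) ω π
  surj : Function.Surjective π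
  fib : ∀ p q, π p = π q ↔ ∃ k : ℤ, (g ^ k) p = q
  hol : ContMDiff 𝓘(ℂ, C2) 𝓘(ℂ, C2) ω g
  hol_inv : ContMDiff 𝓘(ℂ, C2) 𝓘(ℂ, C2) ω g.symm
  smooth : ∀ p, SmAt (fun q => (t q : ℂ)) p
  shift : ∀ p, t (g p) = t p + 1
  drift : ∀ p, ∃ v, 0 < levi t p v

/-- No twist of the canonical bundle of `X` by a flat bundle of the cover has a section. -/
def NoTwistedCanonical (π : M → X) (g : M ≃ₜ M) : Prop :=
  ∀ (c : ℂ) (s : M → ℂ), (∀ p, HolAt (pull π (canon X) p * s) p) → (∀ p, s (g p) = c * s p) →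
    s = 0

/-- Smooth Hermitian line bundles `E i` on the cover, trivialised outside a compact set `S`, with
self-intersection `-1` and canonical degree `-1` (expressed by Riemann-Roch on the finite cyclic
covers), whose translates are independent near their supports. -/
structure IsBasis {n : ℕ} (π : M → X) (g : M ≃ₜ M) (S : Set M) (E : Fin n → M → M → ℂ) :
    Prop where
  compact : IsCompact S
  smooth : ∀ i, IsBundle SmAt (E i)
  metric : ∀ i p, SmAt (fun q => (‖E i p q‖ : ℂ)) p
  triv : ∀ i, ∀ p ∉ S, E i p = 1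
  euler : ∀ i (m : ℤ), ∀ᶠ N : ℕ in atTop, ∀ u : M → M → ℂ, IsBundle HolAt u →
    pull (g ^ N) u = u →
    (∀ p, SmAt (u p / ∏ᶠ k : ℤ, pull (g ^ (k * N)) (E i) p ^ m) p) →
    Euler (g ^ N) u (pull π (canon X)) ((m - m ^ 2) / 2)
  indep : ∀ (W : Finset (Fin n × ℤ)) (a : Fin n × ℤ → ℤ) (U : Set M), IsOpen U →
    (∀ w ∈ W, (g ^ w.2) ⁻¹' S ⊆ U) →
    TrivialOn (∏ w ∈ W, pull (g ^ w.2) (E w.1) ^ a w) U → ∀ w ∈ W, a w = 0

end Vale.Agent.P267
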