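import Vale.Agent.P267.Stmt

/-!
Connections on line bundles, Chern-Weil integrals, and the intersection lattice of the finite
cyclic covers.
-/

open scoped Manifold ContDiff Topology
open Filter

noncomputable section

namespace Vale.Agent.P267

/-- The exterior derivative of a one-form on affine space. -/
def extD (A : C2 → C2 →L[ℝ] ℂ) (z v w : C2) : ℂ :=
  fderiv ℝ (fun y => A y w) z v - fderiv ℝ (fun y => A y v) z w

/-- The oriented real basis of affine space. -/
def bs : Fin 4 → C2 :=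
  ![Pi.single 0 1, Pi.single 0 Complex.I, Pi.single 1 1, Pi.single 1 Complex.I]

/-- The product of two two-forms, given by their coefficients, on the oriented basis. -/
def wedge (A B : Fin 4 → Fin 4 → ℂ) : ℂ :=
  A 0 1 * B 2 3 - A 0 2 * B 1 3 + A 0 3 * B 1 2 + A 1 2 * B 0 3 - A 1 3 * B 0 2 + A 2 3 * B 0 1

section Forms
variable {M : Type} [TopologicalSpace M] [ChartedSpace C2 M]

/-- The differential of a function at `x`, in the chart at `x`. -/
def dAt (f : M → ℂ) (x : M) : C2 →L[ℝ] ℂ :=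
  fderiv ℝ (f ∘ (chartAt C2 x).symm) (chartAt C2 x x)

/-- The expression in the chart `P` of a one-form, given at each `x` in the chart at `x`. -/
def inChart (P : OpenPartialHomeomorph M C2) (θ : M → C2 →L[ℝ] ℂ) (z : C2) : C2 →L[ℝ] ℂ :=
  (θ (P.symm z)).comp (fderiv ℝ (chartAt C2 (P.symm z) ∘ P.symm) z)

/-- A holomorphic chart. -/
def HolChart (P : OpenPartialHomeomorph M C2) : Prop :=
  ∀ p ∈ P.source, ∀ f, HolAt f p ↔ AnalyticAt ℂ (f ∘ P.symm) (P p)

/-- A connection on the bundle `u` over the quotient by `G`: `θ p` is the connection form in the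
frame chosen near `p`. -/
structure IsConnection (G : M → M) (u : M → M → ℂ) (θ : M → M → C2 →L[ℝ] ℂ) : Prop where
  smooth : ∀ p v, ∀ᶠ z in 𝓝 (chartAt C2 p p),
    ContDiffAt ℝ ∞ (fun y => inChart (chartAt C2 p) (θ p) y v) z
  compat : ∀ p, ∀ᶠ q in 𝓝 p, ∀ᶠ x in 𝓝 q,
    θ p x - θ q x = ((u p / u q) x)⁻¹ • dAt (u p / u q) x
  per : ∀ p, ∀ᶠ x in 𝓝 p, θ p x = (θ (G p) (G x)).comp
    (fderiv ℝ (chartAt C2 (G x) ∘ G ∘ (chartAt C2 x).symm) (chartAt C2 x x))

/-- The coefficients of the curvature form in the chart `P`. -/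
def curv (P : OpenPartialHomeomorph M C2) (θ : M → M → C2 →L[ℝ] ℂ) (z : C2) (a b : Fin 4) : ℂ :=
  extD (inChart P (θ (P.symm z))) z (bs a) (bs b)

/-- A finite partition of unity on the quotient by `G`, subordinate to holomorphic charts. -/
structure IsPartition (G : M ≃ₜ M) {m : ℕ} (P : Fin m → OpenPartialHomeomorph M C2)
    (ψ : Fin m → M → ℝ) : Prop where
  chart : ∀ a, HolChart (P a)
  cont : ∀ a, Continuous (ψ a)
  compact : ∀ a, HasCompactSupport (ψ a)
  supp : ∀ a, tsupport (ψ a) ⊆ (P a).source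
  sum : ∀ x, ∑ᶠ k : ℤ, ∑ a, ψ a ((G ^ k) x) = 1

/-- The integral over the quotient of the product of the first Chern forms. -/
def pairing {m : ℕ} (P : Fin m → OpenPartialHomeomorph M C2) (ψ : Fin m → M → ℝ)
    (θ θ' : M → M → C2 →L[ℝ] ℂ) : ℂ :=
  -(4 * Real.pi ^ 2 : ℂ)⁻¹ * ∑ a, ∫ z in (P a).target,
    (ψ a ((P a).symm z) : ℂ) * wedge (curv (P a) θ z) (curv (P a) θ' z)

/-- On the compact surface `M / G` with canonical bundle `k`, the first Chern class `c` takes
values in the lattice `ℤ ^ m` with the negative of the standard form, the basis vectors are classes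
of holomorphic bundles `L j` (trivial on coordinate polydiscs), the canonical class is the sum of
the basis vectors, and the Riemann-Roch formula holds. -/
structure IsLattice (G : M ≃ₜ M) (k : M → M → ℂ) {m : ℕ} (L : Fin m → M → M → ℂ)
    (c : (M → M → ℂ) → Fin m → ℤ) : Prop where
  hol : ∀ j, IsBundle HolAt (L j) ∧ pull G (L j) = L j
  frame : ∀ j (P : OpenPartialHomeomorph M C2) (r : ℝ), HolChart P → P.target = Metric.ball 0 r →
    ∃ s : M → ℂ, ∀ p ∈ P.source, s p ≠ 0 ∧ HolAt (L j p * s) p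
  basis : ∀ j, c (L j) = Pi.single j 1
  canonical : c k = 1
  pair : ∀ (u v : M → M → ℂ) (θ θ' : M → M → C2 →L[ℝ] ℂ), IsBundle SmAt u → pull G u = u →
    IsBundle SmAt v → pull G v = v → IsConnection G u θ → IsConnection G v θ' →
    ∀ (l : ℕ) (P : Fin l → OpenPartialHomeomorph M C2) (ψ : Fin l → M → ℝ), IsPartition G P ψ →
      pairing P ψ θ θ' = -((∑ j, c u j * c v j : ℤ) : ℂ)
  rr : ∀ u : M → M → ℂ, IsBundle HolAt u → pull G u = u →
    Euler G u k ((-(∑ j, c u j * c u j) + ∑ j, c u j * c k j) / 2)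

end Forms

end Vale.Agent.P267
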