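import Vale.Agent.P267.Stmt2

/-! Infinite cyclic covers and the first Betti number. -/

open scoped Manifold ContDiff Topology
open Filter

noncomputable section

namespace Vale.Agent.P267

section Betti
variable (X : Type) [TopologicalSpace X]

variable {X} in
/-- `f` is constant near `p`. -/
def ConstAt (f : X → ℂ) (p : X) : Prop := ∀ᶠ q in 𝓝 p, f q = f p

/-- One-cocycles of the constant sheaf: global sections of (all functions) modulo (locally
constant functions); `f p` represents the germ at `p`. -/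
def Zc : Submodule ℂ (X → X → ℂ) :=
  Submodule.span ℂ {f | ∀ p, ∀ᶠ q in 𝓝 p, ConstAt (f p - f q) q}

/-- One-coboundaries of the constant sheaf. -/
def Bc : Submodule ℂ (X → X → ℂ) :=
  Submodule.span ℂ {f | ∃ s : X → ℂ, ∀ p, ConstAt (f p - s) p}

/-- The first Betti number: the dimension of the first cohomology of the constant sheaf `ℂ`. -/
def firstBetti : ℕ := Module.finrank ℂ (Zc X ⧸ (Bc X).submoduleOf (Zc X))

end Betti

variable {X M : Type} [TopologicalSpace X] [ChartedSpace C2 X] [TopologicalSpace M]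
  [ChartedSpace C2 M]

/-- `π : M → X` is an infinite cyclic cover with deck group generated by `g`. -/
structure IsCyclic (π : M → X) (g : M ≃ₜ M) : Prop where
  loc : IsLocalDiffeomorph 𝓘(ℂ, C2) 𝓘(ℂ, C2) ω π
  surj : Function.Surjective π
  fib : ∀ p q, π p = π q ↔ ∃ k : ℤ, (g ^ k) p = q
  hol : ContMDiff 𝓘(ℂ, C2) 𝓘(ℂ, C2) ω g
  hol_inv : ContMDiff 𝓘(ℂ, C2) 𝓘(ℂ, C2) ω g.symm
  free : ∀ (k : ℤ) p, (g ^ k) p = p → k = 0

end Vale.Agent.P267
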