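import Vale.Agent.P267.Stmt2

/-! The canonical class is numerically effective. -/

noncomputable section

namespace Vale.Agent.P267

variable {M : Type} [TopologicalSpace M] [ChartedSpace C2 M]

/-- On the surface `M / G` with canonical bundle `k` and first Chern class `c` (with values in the
lattice `ℤ ^ m` with the negative of the standard form), the canonical class has nonnegative
intersection number with the class of every holomorphic line bundle that has a nonzero holomorphic
section, that is, with every effective divisor. -/
def Nef (G : M → M) (k : M → M → ℂ) {m : ℕ} (c : (M → M → ℂ) → Fin m → ℤ) : Prop :=
  ∀ u : M → M → ℂ, IsBundle HolAt u → pull G u = u → H0 G u ≠ ⊥ → 0 ≤ -∑ j, c u j * c k j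

end Vale.Agent.P267
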