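import Vale.Agent.P267.Stmt3
import Vale.Agent.P267.StmtNef

/-! Surfaces of class VII, minimal surfaces, global spherical shells, and the published theorems
that are quoted. -/

open scoped Manifold ContDiff Topology
open Filter

noncomputable section

namespace Vale.Agent.P267

/-- The second Betti number: the rank of the second singular homology group. -/
def secondBetti (X : Type) [TopologicalSpace X] : ℕ :=
  Module.finrank ℚ (((AlgebraicTopology.singularHomologyFunctor (ModuleCat ℚ) 2).obj
    (ModuleCat.of ℚ ℚ)).obj (TopCat.of X))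

section Surface
variable (X : Type) [TopologicalSpace X] [ChartedSpace C2 X]

/-- A surface: a connected compact complex manifold of dimension two. -/
def IsSurface : Prop :=
  IsManifold 𝓘(ℂ, C2) ω X ∧ T2Space X ∧ CompactSpace X ∧ ConnectedSpace X

/-- Class VII: the first Betti number is one and all plurigenera vanish. -/
def IsClassVII : Prop := firstBetti X = 1 ∧ ∀ m : ℕ, 1 ≤ m → H0 id (canon X ^ m) = ⊥

variable {X} in
/-- The holomorphic line bundle `u` has self-intersection `d`: the integral of the square of the
first Chern form of a connection is `d`. -/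
def SelfInt (u : X → X → ℂ) (d : ℤ) : Prop :=
  ∃ (θ : X → X → C2 →L[ℝ] ℂ) (l : ℕ) (P : Fin l → OpenPartialHomeomorph X C2)
    (ψ : Fin l → X → ℝ), IsConnection id u θ ∧ (∀ a, HolChart (P a)) ∧ (∀ a, Continuous (ψ a)) ∧
      (∀ a, tsupport (ψ a) ⊆ (P a).source) ∧ (∀ x, ∑ a, ψ a x = 1) ∧ pairing P ψ θ θ = d

variable {X} in
/-- A smooth rational curve of self-intersection `-1`: a rational curve that is the zero set of a
holomorphic section, vanishing to first order, of a line bundle of self-intersection `-1`. -/
def IsExceptional (C : Set X) : Prop :=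
  IsRationalCurve C ∧ ∃ (u : X → X → ℂ) (s : X → ℂ), IsBundle HolAt u ∧
    (∀ p, HolAt (u p * s) p) ∧ (∀ p, s p = 0 ↔ p ∈ C) ∧ (∀ p ∈ C, dAt (u p * s) p ≠ 0) ∧
    SelfInt u (-1)

/-- Minimal surfaces. -/
def IsMinimal : Prop := ∀ C : Set X, ¬ IsExceptional C

/-- A global spherical shell: an open set, biholomorphic to a neighbourhood of the unit sphere in
the punctured plane, with connected complement. -/
def HasGSS : Prop :=
  ∃ φ : OpenPartialHomeomorph X C2, HolChart φ ∧ {z : C2 | ∑ j, ‖z j‖ ^ 2 = 1} ⊆ φ.target ∧
    (0 : C2) ∉ φ.target ∧ IsConnected φ.sourceᶜ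

end Surface

/-- Dloussky, Oeljeklaus, Toma 2003: a minimal surface of class VII with `b₂ > 0` that contains
`b₂` rational curves contains a global spherical shell. -/
def DOT : Prop :=
  ∀ (X : Type) [TopologicalSpace X] [ChartedSpace C2 X], IsSurface X → IsClassVII X →
    IsMinimal X → 0 < secondBetti X →
    (∃ C : Fin (secondBetti X) → Set X, Function.Injective C ∧ ∀ i, IsRationalCurve (C i)) →
    HasGSS X

/-- Riemann-Roch, Noether's formula and Donaldson's diagonalisation theorem on the finite cyclic
covers of a surface of class VII; on a minimal surface the canonical class is numerically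
effective, by the adjunction formula. -/
def Lattices : Prop :=
  ∀ (X : Type) [TopologicalSpace X] [ChartedSpace C2 X], IsSurface X → IsClassVII X →
    ∀ (M : Type) [TopologicalSpace M] [ChartedSpace C2 M] [IsManifold 𝓘(ℂ, C2) ω M] [T2Space M]
      [ConnectedSpace M] (π : M → X) (g : M ≃ₜ M), IsCyclic π g →
      ∀ N : ℕ, 0 < N → ∃ (L : Fin (secondBetti X * N) → M → M → ℂ)
        (c : (M → M → ℂ) → Fin (secondBetti X * N) → ℤ),
        IsLattice (g ^ N) (pull π (canon X)) L c ∧
          (IsMinimal X → Nef (g ^ N) (pull π (canon X)) c)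

end Vale.Agent.P267
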