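import Vale.Agent.P267.Stmt4

/-! The intersection lattice of a surface of class VII. -/

open scoped Manifold ContDiff Topology
open Filter

noncomputable section

namespace Vale.Agent.P267

/-- On the compact surface `X` the first Chern class `c` takes values in the lattice `ℤ ^ m` with
the negative of the standard form, the basis vectors are classes of holomorphic bundles `L j`, the
canonical class is the sum of the basis vectors, and the Riemann-Roch formula holds with
`χ(𝒪) = 0`. -/
structure HasLattice (X : Type) [TopologicalSpace X] [ChartedSpace C2 X] {m : ℕ}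
    (L : Fin m → X → X → ℂ) (c : (X → X → ℂ) → Fin m → ℤ) : Prop where
  hol : ∀ j, IsBundle HolAt (L j)
  basis : ∀ j, c (L j) = Pi.single j 1
  canonical : c (canon X) = 1
  pair : ∀ (u v : X → X → ℂ) (θ θ' : X → X → C2 →L[ℝ] ℂ), IsBundle SmAt u → IsBundle SmAt v →
    IsConnection id u θ → IsConnection id v θ' →
    ∀ (l : ℕ) (P : Fin l → OpenPartialHomeomorph X C2) (ψ : Fin l → X → ℝ),
      (∀ a, HolChart (P a)) → (∀ a, Continuous (ψ a)) → (∀ a, tsupport (ψ a) ⊆ (P a).source) →
      (∀ x, ∑ a, ψ a x = 1) → pairing P ψ θ θ' = -((∑ j, c u j * c v j : ℤ) : ℂ)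
  rr : ∀ u : X → X → ℂ, IsBundle HolAt u →
    Euler id u (canon X) ((-(∑ j, c u j * c u j) + ∑ j, c u j * c (canon X) j) / 2)

/-- Riemann-Roch, Noether's formula and Donaldson's diagonalisation theorem for surfaces of
class VII. -/
def RRD : Prop :=
  ∀ (X : Type) [TopologicalSpace X] [ChartedSpace C2 X], IsSurface X → IsClassVII X →
    ∃ (L : Fin (secondBetti X) → X → X → ℂ) (c : (X → X → ℂ) → Fin (secondBetti X) → ℤ),
      HasLattice X L c

end Vale.Agent.P267
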