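import Vale.Agent.P267.Stmt5

/-! The intersection form of a surface of class VII. -/

open scoped Manifold ContDiff Topology
open Filter Matrix

noncomputable section

namespace Vale.Agent.P267

/-- On the compact surface `X` the first Chern class `c` takes values in `ℤ ^ m`, the intersection
form is given by the symmetric unimodular matrix `Q`, every class is the class of a holomorphic
bundle, the canonical class has square `-m`, and the Riemann-Roch formula holds with
`χ(𝒪) = 0`. -/
structure HasForm (X : Type) [TopologicalSpace X] [ChartedSpace C2 X] {m : ℕ}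
    (Q : Matrix (Fin m) (Fin m) ℤ) (c : (X → X → ℂ) → Fin m → ℤ) : Prop where
  symm : Q.IsSymm
  unimod : IsUnit Q.det
  surj : ∀ a, ∃ u, IsBundle HolAt u ∧ c u = a
  noether : c (canon X) ⬝ᵥ Q *ᵥ c (canon X) = -m
  pair : ∀ (u v : X → X → ℂ) (θ θ' : X → X → C2 →L[ℝ] ℂ), IsBundle SmAt u → IsBundle SmAt v →
    IsConnection id u θ → IsConnection id v θ' →
    ∀ (l : ℕ) (P : Fin l → OpenPartialHomeomorph X C2) (ψ : Fin l → X → ℝ),
      (∀ a, HolChart (P a)) → (∀ a, Continuous (ψ a)) → (∀ a, tsupport (ψ a) ⊆ (P a).source) →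
      (∀ x, ∑ a, ψ a x = 1) → pairing P ψ θ θ' = ((c u ⬝ᵥ Q *ᵥ c v : ℤ) : ℂ)
  rr : ∀ u : X → X → ℂ, IsBundle HolAt u → ∃ d : ℤ, Euler id u (canon X) d ∧
    2 * d = c u ⬝ᵥ Q *ᵥ c u - c u ⬝ᵥ Q *ᵥ c (canon X)

/-- Poincare duality, the Chern-Weil formula, the exponential sequence, Noether's formula and
Riemann-Roch for surfaces of class VII. -/
def RRP : Prop :=
  ∀ (X : Type) [TopologicalSpace X] [ChartedSpace C2 X], IsSurface X → IsClassVII X →
    ∃ (Q : Matrix (Fin (secondBetti X)) (Fin (secondBetti X)) ℤ)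
      (c : (X → X → ℂ) → Fin (secondBetti X) → ℤ), HasForm X Q c

end Vale.Agent.P267
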